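import Vale.Agent.P298.H462.Defs
import Mathlib.Analysis.Calculus.InverseFunctionTheorem.ContDiff
import Mathlib.Analysis.Calculus.ContDiff.RestrictScalars
import Mathlib.Analysis.SpecialFunctions.Complex.LogDeriv
import Mathlib.Analysis.SpecialFunctions.Log.Deriv

/-!
Count of touching points: local injectivity, and the normal form of a branch.
-/

namespace Vale.Agent.P298.H365

open Filter Topology Metric Vale.Agent.P298 Vale.Agent.P298.H462 Set

/-- A strictly differentiable function with injective derivative is locally injective. -/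
theorem exists_injOn_of_injective {E F : Type*} [NormedAddCommGroup E] [NormedSpace ℝ E]
    [FiniteDimensional ℝ E] [NormedAddCommGroup F] [NormedSpace ℝ F] {f : E → F}
    {f' : E →L[ℝ] F} {a : E} (hf : HasStrictFDerivAt f f' a) (hinj : Function.Injective f') :
    ∃ U ∈ 𝓝 a, InjOn f U := by
  obtain ⟨K, K0, hK⟩ := LinearMap.exists_antilipschitzWith (f' : E →ₗ[ℝ] F)
    (LinearMap.ker_eq_bot.2 hinj)
  have hc : (0 : NNReal) < (2 * K)⁻¹ := by positivity
  obtain ⟨U, hU, hA⟩ := hf.approximates_deriv_on_nhds (Or.inr hc)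
  refine ⟨U, hU, fun x hx y hy hxy => ?_⟩
  have h1 := hA x hx y hy
  rw [hxy, sub_self, zero_sub, norm_neg] at h1
  have h2 : ‖x - y‖ ≤ K * ‖f' (x - y)‖ := by
    have := hK.le_mul_dist x y
    rw [dist_eq_norm, dist_eq_norm] at this
    simpa [map_sub] using this
  have h3 : ‖x - y‖ ≤ 1 / 2 * ‖x - y‖ := by
    calc ‖x - y‖ ≤ K * ‖f' (x - y)‖ := h2
      _ ≤ K * (((2 * K)⁻¹ : NNReal) * ‖x - y‖) := by gcongr
      _ = 1 / 2 * ‖x - y‖ := by
        push_cast
        have : (K : ℝ) ≠ 0 := by exact_mod_cast K0.ne'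
        field_simp
  have h4 : ‖x - y‖ = 0 := by
    have := norm_nonneg (x - y)
    linarith
  exact sub_eq_zero.1 (norm_eq_zero.1 h4)

/-- The Hermitian form. -/
noncomputable def herm (x y : V) : ℂ := ∑ k, x k * (starRingEnd ℂ) (y k)

theorem lam_eq (f e : V → ℂ) (x : V) : lam f e x = herm (xi f e x) x := rfl

theorem herm_self (x : V) : herm x x = nsq x := by
  simp only [herm, nsq, Complex.mul_conj, Complex.ofReal_sum, Complex.normSq_eq_norm_sq]

theorem nsq_nonneg (x : V) : 0 ≤ nsq x := Finset.sum_nonneg fun _ _ => by positivity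

theorem nsq_pos {x : V} (hx : x ≠ 0) : 0 < nsq x := by
  obtain ⟨k, hk⟩ := Function.ne_iff.1 hx
  exact Finset.sum_pos' (fun _ _ => by positivity) ⟨k, Finset.mem_univ _, by
    have := norm_pos_iff.2 hk
    positivity⟩

theorem nsq_smul (a : ℂ) (x : V) : nsq (a • x) = ‖a‖ ^ 2 * nsq x := by
  simp [nsq, mul_pow, Finset.mul_sum]

theorem herm_smul_left (a : ℂ) (x y : V) : herm (a • x) y = a * herm x y := by
  simp [herm, Finset.mul_sum, mul_assoc]

theorem herm_smul_right (a : ℂ) (x y : V) : herm x (a • y) = (starRingEnd ℂ) a * herm x y := by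
  simp only [herm, Finset.mul_sum, Pi.smul_apply, smul_eq_mul, map_mul]
  exact Finset.sum_congr rfl fun k _ => by ring

/-- The normal form of a branch: the function `T` is a local diffeomorphism and the size of
`γ` and the argument of `⟨ξ, γ⟩` are powers of the absolute value and of the argument of `T`. -/
structure Normal (γ ξ : ℂ → V) (c m : ℕ) (κ : ℂ) (T : ℂ → ℂ) (r : ℝ) : Prop where
  mpos : 0 < m
  rpos : 0 < r
  hκ : ‖κ‖ = 1
  inj : InjOn T (ball 0 r)
  der : ∀ s ∈ ball (0 : ℂ) r, ∃ T' : ℂ →L[ℝ] ℂ, HasFDerivAt T T' s ∧ Function.Injective T'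
  ne : ∀ s ∈ ball (0 : ℂ) r, s ≠ 0 → T s ≠ 0 ∧ γ s ≠ 0 ∧ herm (ξ s) (γ s) ≠ 0
  size : ∀ s ∈ ball (0 : ℂ) r, s ≠ 0 → nsq (γ s) = ‖T s‖ ^ (2 * m)
  arg : ∀ s ∈ ball (0 : ℂ) r, s ≠ 0 → herm (ξ s) (γ s) / ‖herm (ξ s) (γ s)‖ =
    κ * (T s / ‖T s‖) ^ (c - 1)

end Vale.Agent.P298.H365
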