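import Vale.Agent.P298.H365.Count1

/-!
Count of touching points: existence of the normal form of a branch.
-/

namespace Vale.Agent.P298.H365

open Filter Topology Metric Vale.Agent.P298 Vale.Agent.P298.H462 Set

theorem contDiff_nsq {n : WithTop ℕ∞} : ContDiff ℝ n nsq := by
  unfold nsq
  exact ContDiff.sum fun k _ => (contDiff_norm_sq ℝ).comp (contDiff_apply ℝ ℂ k)

theorem contDiff_herm {n : WithTop ℕ∞} : ContDiff ℝ n fun p : V × V => herm p.1 p.2 := by
  unfold herm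
  refine ContDiff.sum fun k _ => ContDiff.mul ?_ ?_
  · exact (contDiff_apply ℝ ℂ k).comp contDiff_fst
  · exact Complex.conjCLE.contDiff.comp ((contDiff_apply ℝ ℂ k).comp contDiff_snd)

theorem exp_im_log {z : ℂ} (hz : z ≠ 0) :
    Complex.exp (Complex.I * (Complex.log z).im) = z / ‖z‖ := by
  have h : ‖z‖ ≠ 0 := norm_ne_zero_iff.2 hz
  have h1 : z = ‖z‖ * Complex.exp (Complex.I * (Complex.log z).im) := by
    rw [Complex.log_im, mul_comm Complex.I, Complex.norm_mul_exp_arg_mul_I]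
  have h2 : (‖z‖ : ℂ) ≠ 0 := by exact_mod_cast h
  rw [eq_div_iff h2, mul_comm]
  exact h1.symm

/-- A branch has a normal form. -/
theorem exists_normal {γ ξ : ℂ → V} {u : ℂ → ℂ} {c : ℕ} (hγ : AnalyticAt ℂ γ 0) (h0 : γ 0 = 0)
    (hne : ¬ ∀ᶠ s in 𝓝 (0 : ℂ), γ s = 0) (hu : AnalyticAt ℂ u 0) (hu0 : u 0 ≠ 0)
    (hode : ∀ᶠ s in 𝓝 (0 : ℂ), s ^ c • deriv γ s = u s • ξ s) (hc : 2 ≤ c) {R : ℝ}
    (hR : 0 < R) : ∃ m κ T r, r ≤ R ∧ Normal γ ξ c m κ T r := by
  obtain ⟨m, α, hα, hα0, hev⟩ := hγ.exists_eventuallyEq_pow_smul_nonzero_iff.2 hne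
  simp only [sub_zero] at hev
  have hm : m ≠ 0 := by
    rintro rfl
    have := hev.self_of_nhds
    rw [h0] at this
    simp at this
    exact hα0 this.symm
  have hm' : (m : ℂ) ≠ 0 := by exact_mod_cast hm
  have hmr : (m : ℝ) ≠ 0 := by exact_mod_cast hm
  set β : ℂ → ℂ := fun s => (u s)⁻¹ * herm ((m : ℂ) • α s + s • deriv α s) (α s) with hβ
  have hβ0 : β 0 ≠ 0 := by
    simp only [hβ, zero_smul, add_zero, herm_smul_left, herm_self]
    refine mul_ne_zero (inv_ne_zero hu0) (mul_ne_zero hm' ?_)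
    exact_mod_cast (nsq_pos hα0).ne'
  have cα : ContDiffAt ℝ 1 α 0 := (hα.contDiffAt (n := 1)).restrict_scalars ℝ
  have cα' : ContDiffAt ℝ 1 (deriv α) 0 := (hα.deriv.contDiffAt (n := 1)).restrict_scalars ℝ
  have cu : ContDiffAt ℝ 1 u 0 := (hu.contDiffAt (n := 1)).restrict_scalars ℝ
  have cβ : ContDiffAt ℝ 1 β 0 := by
    refine (cu.inv hu0).mul ?_
    have h1 : ContDiffAt ℝ 1 (fun s : ℂ => ((m : ℂ) • α s + s • deriv α s, α s)) 0 := by
      refine ContDiffAt.prodMk (ContDiffAt.add ?_ ?_) cα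
      · exact cα.const_smul (m : ℂ)
      · exact (contDiffAt_id (𝕜 := ℝ) (E := ℂ) (n := 1)).smul cα'
    exact contDiff_herm.contDiffAt.comp (0 : ℂ) h1
  have cν : ContDiffAt ℝ 1 (fun s => nsq (α s)) 0 := contDiff_nsq.contDiffAt.comp (0 : ℂ) cα
  set h : ℂ → ℂ := fun s => ((Real.log (nsq (α s)) / (2 * m) : ℝ) : ℂ) +
    Complex.I * (((Complex.log (β s / β 0)).im / (c - 1) : ℝ) : ℂ) with hh
  have ch : ContDiffAt ℝ 1 h 0 := by
    refine ContDiffAt.add ?_ (contDiffAt_const.mul ?_)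
    · exact Complex.ofRealCLM.contDiff.contDiffAt.comp (0 : ℂ)
        ((cν.log (nsq_pos hα0).ne').div_const _)
    · refine Complex.ofRealCLM.contDiff.contDiffAt.comp (0 : ℂ) (ContDiffAt.div_const ?_ _)
      change ContDiffAt ℝ 1 (Complex.imCLM ∘ fun s => Complex.log (β s / β 0)) 0
      refine Complex.imCLM.contDiff.contDiffAt.comp (0 : ℂ) ?_
      have h2 : ContDiffAt ℝ 1 Complex.log (β 0 / β 0) :=
        (Complex.contDiffAt_log (n := 1) (by rw [div_self hβ0]; exact Complex.one_mem_slitPlane)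
          ).restrict_scalars ℝ
      exact ContDiffAt.comp (g := Complex.log) (0 : ℂ) h2 (cβ.div_const _)
  set T : ℂ → ℂ := fun s => s * Complex.exp (h s) with hT
  have cT : ContDiffAt ℝ 1 T 0 := by
    refine contDiffAt_id.mul ?_
    exact (Complex.contDiff_exp (𝕜 := ℝ)).contDiffAt.comp (0 : ℂ) ch
  have hT0 : HasFDerivAt T (ContinuousLinearMap.mul ℝ ℂ (Complex.exp (h 0))) 0 := by
    have h1 : HasFDerivAt (fun s : ℂ => Complex.exp (h s))
        (fderiv ℝ (fun s : ℂ => Complex.exp (h s)) 0) 0 :=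
      (((Complex.contDiff_exp (𝕜 := ℝ)).contDiffAt.comp (0 : ℂ) ch).differentiableAt
        (by simp)).hasFDerivAt
    have h2 := (hasFDerivAt_id (𝕜 := ℝ) (0 : ℂ)).mul h1
    refine h2.congr_fderiv ?_
    ext
    simp
  have hinj0 : Function.Injective (ContinuousLinearMap.mul ℝ ℂ (Complex.exp (h 0))) := by
    intro x y hxy
    simpa [Complex.exp_ne_zero] using hxy
  obtain ⟨U, hU, hUinj⟩ := exists_injOn_of_injective
    ((cT.hasStrictFDerivAt (by simp)).congr_fderiv hT0.fderiv) hinj0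
  have hder : ∀ᶠ s in 𝓝 (0 : ℂ), ∃ T' : ℂ →L[ℝ] ℂ, HasFDerivAt T T' s ∧
      Function.Injective T' := by
    have h1 : ∀ᶠ s in 𝓝 (0 : ℂ), ContDiffAt ℝ 1 T s := cT.eventually (by simp)
    have h2 : ContinuousAt (fderiv ℝ T) 0 := (cT.fderiv_right (m := 0) (by simp)).continuousAt
    set z : ℂ := Complex.exp (h 0) with hz
    have hz0 : z ≠ 0 := Complex.exp_ne_zero _
    let e : ℂ ≃L[ℝ] ℂ := ContinuousLinearEquiv.equivOfInverse (ContinuousLinearMap.mul ℝ ℂ z)
      (ContinuousLinearMap.mul ℝ ℂ z⁻¹) (fun x => by simp [hz0]) (fun x => by simp [hz0])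
    have he : (e : ℂ →L[ℝ] ℂ) = fderiv ℝ T 0 := by
      rw [hT0.fderiv]
      rfl
    have h3 : ∀ᶠ s in 𝓝 (0 : ℂ), fderiv ℝ T s ∈
        Set.range ((↑) : (ℂ ≃L[ℝ] ℂ) → (ℂ →L[ℝ] ℂ)) := by
      refine h2.eventually ?_
      rw [← he]
      exact ContinuousLinearEquiv.nhds e
    filter_upwards [h1, h3] with s hs1 hs3
    obtain ⟨e', he'⟩ := hs3
    refine ⟨fderiv ℝ T s, (hs1.differentiableAt (by simp)).hasFDerivAt, ?_⟩
    rw [← he']
    exact e'.injective
  -- the values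
  have hval : ∀ᶠ s in 𝓝 (0 : ℂ), s ≠ 0 → T s ≠ 0 ∧ γ s ≠ 0 ∧ herm (ξ s) (γ s) ≠ 0 ∧
      nsq (γ s) = ‖T s‖ ^ (2 * m) ∧ herm (ξ s) (γ s) / ‖herm (ξ s) (γ s)‖ =
        β 0 / ‖β 0‖ * (T s / ‖T s‖) ^ (c - 1) := by
    have e1 : ∀ᶠ s in 𝓝 (0 : ℂ), β s ≠ 0 := cβ.continuousAt.eventually_ne hβ0
    have e2 : ∀ᶠ s in 𝓝 (0 : ℂ), α s ≠ 0 := hα.continuousAt.eventually_ne hα0
    have e3 : ∀ᶠ s in 𝓝 (0 : ℂ), u s ≠ 0 := hu.continuousAt.eventually_ne hu0
    filter_upwards [e1, e2, e3, hα.eventually_analyticAt, hode, hev, hev.eventually_nhds]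
      with s hβs hαs hus hαa hodes hγs hγe hs0
    have hsn : ‖s‖ ≠ 0 := norm_ne_zero_iff.2 hs0
    have hsm : s ^ m ≠ 0 := pow_ne_zero _ hs0
    have hd : s • deriv γ s = s ^ m • ((m : ℂ) • α s + s • deriv α s) := by
      have h1 : HasDerivAt γ (((m : ℂ) * s ^ (m - 1)) • α s + s ^ m • deriv α s) s := by
        have h2 := (hasDerivAt_pow m s).smul hαa.differentiableAt.hasDerivAt
        rw [add_comm] at h2
        exact h2.congr_of_eventuallyEq hγe
      rw [h1.deriv, smul_add, smul_add, smul_smul, smul_smul, smul_smul, smul_smul]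
      congr 2
      · obtain ⟨m', rfl⟩ := Nat.exists_eq_succ_of_ne_zero hm
        simp only [Nat.succ_eq_add_one, Nat.add_sub_cancel, pow_succ]
        ring
      · ring
    have hξ : ξ s = ((u s)⁻¹ * s ^ (c - 1) * s ^ m) • ((m : ℂ) • α s + s • deriv α s) := by
      have h1 : s ^ c • deriv γ s = s ^ (c - 1) • (s • deriv γ s) := by
        rw [smul_smul, ← pow_succ]
        congr 2
        omega
      rw [h1, hd] at hodes
      have h2 : ξ s = (u s)⁻¹ • (u s • ξ s) := by rw [smul_smul, inv_mul_cancel₀ hus, one_smul]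
      rw [h2, ← hodes, smul_smul, smul_smul]
    have hH : herm (ξ s) (γ s) = s ^ (c - 1) * ((‖s‖ ^ (2 * m) : ℝ) : ℂ) * β s := by
      rw [hξ, hγs, herm_smul_left, herm_smul_right]
      have h3 : s ^ m * (starRingEnd ℂ) (s ^ m) = ((‖s‖ ^ (2 * m) : ℝ) : ℂ) := by
        rw [Complex.mul_conj, Complex.normSq_eq_norm_sq, norm_pow, ← pow_mul, mul_comm 2 m]
      simp only [hβ]
      rw [← h3]
      ring
    have hν : 0 < nsq (α s) := nsq_pos hαs
    have hTs : T s = s * Complex.exp (h s) := rfl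
    have hT0' : T s ≠ 0 := mul_ne_zero hs0 (Complex.exp_ne_zero _)
    have hre : (h s).re = Real.log (nsq (α s)) / (2 * m) := by
      simp only [hh, Complex.add_re, Complex.ofReal_re, Complex.mul_re, Complex.I_re,
        Complex.I_im, Complex.ofReal_im]
      ring
    have him : (h s).im = (Complex.log (β s / β 0)).im / (c - 1) := by
      simp only [hh, Complex.add_im, Complex.ofReal_re, Complex.mul_im, Complex.I_re,
        Complex.I_im, Complex.ofReal_im]
      ring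
    have hTn : ‖T s‖ = ‖s‖ * Real.exp (Real.log (nsq (α s)) / (2 * m)) := by
      rw [hTs, norm_mul, Complex.norm_exp, hre]
    have hγ0 : γ s ≠ 0 := by rw [hγs]; exact smul_ne_zero hsm hαs
    have hHne : herm (ξ s) (γ s) ≠ 0 := by
      rw [hH]
      refine mul_ne_zero (mul_ne_zero (pow_ne_zero _ hs0) ?_) hβs
      exact_mod_cast pow_ne_zero _ hsn
    refine ⟨hT0', hγ0, hHne, ?_, ?_⟩
    · rw [hγs, nsq_smul, hTn, mul_pow, ← Real.exp_nat_mul, norm_pow, ← pow_mul, mul_comm m 2]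
      congr 1
      have : ((2 * m : ℕ) : ℝ) * (Real.log (nsq (α s)) / (2 * m)) = Real.log (nsq (α s)) := by
        push_cast
        field_simp
      rw [this, Real.exp_log hν]
    · have hc1 : ((c - 1 : ℕ) : ℂ) = (c : ℂ) - 1 := by
        push_cast [Nat.cast_sub (show 1 ≤ c by omega)]
        rfl
      have hc0 : ((c : ℝ) - 1) ≠ 0 := by
        have : (2 : ℝ) ≤ c := by exact_mod_cast hc
        linarith
      have hTa : (T s / ‖T s‖) ^ (c - 1) = (s / ‖s‖) ^ (c - 1) * ((β s / β 0) / ‖β s / β 0‖) := by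
        have h1 : T s / ‖T s‖ = (s / ‖s‖) * Complex.exp (Complex.I * (h s).im) := by
          have h2 : Complex.exp (h s) = (Real.exp (h s).re : ℂ) * Complex.exp (Complex.I * (h s).im) := by
            rw [Complex.ofReal_exp, ← Complex.exp_add, mul_comm Complex.I, Complex.re_add_im]
          rw [hTn, ← hre, hTs, h2]
          have h3 : (Real.exp (h s).re : ℂ) ≠ 0 := by exact_mod_cast (Real.exp_pos _).ne'
          have h4 : (‖s‖ : ℂ) ≠ 0 := by exact_mod_cast hsn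
          push_cast at h3 ⊢
          field_simp
        rw [h1, mul_pow, ← Complex.exp_nat_mul]
        congr 1
        rw [← exp_im_log (div_ne_zero hβs hβ0)]
        congr 1
        rw [him, hc1]
        push_cast
        have : ((c : ℂ) - 1) ≠ 0 := by exact_mod_cast hc0
        field_simp
      rw [hTa, hH]
      have n1 : (‖s‖ : ℂ) ≠ 0 := by exact_mod_cast hsn
      have n2 : (‖β 0‖ : ℂ) ≠ 0 := by exact_mod_cast norm_ne_zero_iff.2 hβ0
      have n3 : (‖β s‖ : ℂ) ≠ 0 := by exact_mod_cast norm_ne_zero_iff.2 hβs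
      have n4 : (‖s ^ (c - 1) * ((‖s‖ ^ (2 * m) : ℝ) : ℂ) * β s‖ : ℝ) =
          ‖s‖ ^ (c - 1) * ‖s‖ ^ (2 * m) * ‖β s‖ := by
        rw [norm_mul, norm_mul, norm_pow, Complex.norm_real, Real.norm_of_nonneg (by positivity)]
      rw [n4, norm_div]
      push_cast
      rw [div_pow]
      field_simp
  obtain ⟨r, hr, hrball⟩ := Metric.eventually_nhds_iff_ball.1
    ((hder.and hval).and (Filter.eventually_mem_set.2 hU))
  refine ⟨m, β 0 / ‖β 0‖, T, min r R, min_le_right _ _, Nat.pos_of_ne_zero hm,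
    lt_min hr hR, ?_, ?_, ?_, ?_, ?_, ?_⟩
  · have : ‖β 0‖ ≠ 0 := norm_ne_zero_iff.2 hβ0
    simp [this]
  · intro x hx y hy hxy
    exact hUinj (hrball x (ball_subset_ball (min_le_left _ _) hx)).2
      (hrball y (ball_subset_ball (min_le_left _ _) hy)).2 hxy
  · exact fun s hs => (hrball s (ball_subset_ball (min_le_left _ _) hs)).1.1
  · intro s hs hs0
    obtain ⟨h1, h2, h3, -⟩ := (hrball s (ball_subset_ball (min_le_left _ _) hs)).1.2 hs0
    exact ⟨h1, h2, h3⟩
  · intro s hs hs0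
    exact ((hrball s (ball_subset_ball (min_le_left _ _) hs)).1.2 hs0).2.2.2.1
  · intro s hs hs0
    exact ((hrball s (ball_subset_ball (min_le_left _ _) hs)).1.2 hs0).2.2.2.2

end Vale.Agent.P298.H365
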