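import Vale.Agent.P298.H365.Count2
import Vale.Agent.P298.Bdl.B1

/-!
Count of touching points: local injectivity at the touching points.
-/

namespace Vale.Agent.P298.H365

open Filter Topology Metric Vale.Agent.P298 Vale.Agent.P298.H462 Set

theorem div_ofReal_eq (z : ℂ) (r : ℝ) : z / (r : ℂ) = r⁻¹ • z := by
  rw [Complex.real_smul, div_eq_inv_mul]
  push_cast
  rfl

theorem Normal.tangent {γ ξ : ℂ → V} {c m : ℕ} {κ : ℂ} {T : ℂ → ℂ} {r : ℝ}
    (H : Normal γ ξ c m κ T r) (hc : 2 ≤ c) {s : ℂ} (hs : s ∈ ball (0 : ℂ) r) (hs0 : s ≠ 0)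
    {N' : ℂ →L[ℝ] ℝ} {A' : ℂ →L[ℝ] ℂ} (hN : HasFDerivAt (fun z => nsq (γ z)) N' s)
    (hA : HasFDerivAt (fun z => herm (ξ z) (γ z) / ‖herm (ξ z) (γ z)‖) A' s) {z : ℂ}
    (h1 : N' z = 0) (h2 : A' z = 0) : z = 0 := by
  obtain ⟨T', hT', hinj⟩ := H.der s hs
  obtain ⟨hT0, -, -⟩ := H.ne s hs hs0
  have hnb : ∀ᶠ w in 𝓝 s, w ∈ ball (0 : ℂ) r ∧ w ≠ 0 := by
    filter_upwards [isOpen_ball.mem_nhds hs, eventually_ne_nhds hs0] with w h1 h2
    exact ⟨h1, h2⟩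
  have hn : ‖T s‖ ≠ 0 := norm_ne_zero_iff.2 hT0
  obtain ⟨n', hn'⟩ : ∃ n', HasFDerivAt (fun w => ‖T w‖) n' s :=
    ⟨_, (hT'.differentiableAt.norm ℝ hT0).hasFDerivAt⟩
  have hnC : HasFDerivAt (fun w => ((‖T w‖ : ℝ) : ℂ)) (Complex.ofRealCLM.comp n') s :=
    Complex.ofRealCLM.hasFDerivAt.comp s hn'
  have hnC0 : ((‖T s‖ : ℝ) : ℂ) ≠ 0 := by exact_mod_cast hn
  obtain ⟨a', ha'⟩ : ∃ a' : ℂ →L[ℝ] ℂ,
      HasFDerivAt (fun w => T w / ((‖T w‖ : ℝ) : ℂ)) a' s := by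
    simp only [div_ofReal_eq]
    exact ⟨_, ((hn'.differentiableAt.fun_inv hn).fun_smul hT'.differentiableAt).hasFDerivAt⟩
  have e1 : N' = (((2 * m : ℕ) : ℝ) * ‖T s‖ ^ (2 * m - 1)) • n' := by
    have h3 := hn'.pow (2 * m)
    have h4 : (fun z => nsq (γ z)) =ᶠ[𝓝 s] fun w => ‖T w‖ ^ (2 * m) := by
      filter_upwards [hnb] with w hw
      exact H.size w hw.1 hw.2
    have h5 := h3.congr_of_eventuallyEq h4
    rw [hN.unique h5]
    simp [nsmul_eq_mul, mul_smul]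
  have e2 : A' = (κ * (((c - 1 : ℕ) : ℂ) * (T s / ((‖T s‖ : ℝ) : ℂ)) ^ (c - 1 - 1))) • a' := by
    have h3 := (ha'.pow (c - 1)).const_mul κ
    have h4 : (fun z => herm (ξ z) (γ z) / ‖herm (ξ z) (γ z)‖) =ᶠ[𝓝 s]
        fun w => κ * (T w / ((‖T w‖ : ℝ) : ℂ)) ^ (c - 1) := by
      filter_upwards [hnb] with w hw
      exact H.arg w hw.1 hw.2
    have h5 := h3.congr_of_eventuallyEq h4
    rw [hA.unique h5]
    simp [nsmul_eq_mul, mul_smul]
  have e3 : T' z = (n' z : ℂ) * (T s / ((‖T s‖ : ℝ) : ℂ)) + ((‖T s‖ : ℝ) : ℂ) * a' z := by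
    have h3 := hnC.mul ha'
    have h4 : T =ᶠ[𝓝 s] fun w => ((‖T w‖ : ℝ) : ℂ) * (T w / ((‖T w‖ : ℝ) : ℂ)) := by
      filter_upwards [hnb] with w hw
      have : ((‖T w‖ : ℝ) : ℂ) ≠ 0 := by
        exact_mod_cast norm_ne_zero_iff.2 (H.ne w hw.1 hw.2).1
      field_simp
    have h5 := h3.congr_of_eventuallyEq h4
    rw [hT'.unique h5]
    simp
    ring
  have f1 : n' z = 0 := by
    rw [e1] at h1
    have h3 : ((2 * m : ℕ) : ℝ) * ‖T s‖ ^ (2 * m - 1) ≠ 0 := by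
      have := H.mpos
      refine mul_ne_zero ?_ (pow_ne_zero _ hn)
      exact_mod_cast (by omega : 2 * m ≠ 0)
    have h4 : (((2 * m : ℕ) : ℝ) * ‖T s‖ ^ (2 * m - 1)) * n' z = 0 := h1
    exact (mul_eq_zero.1 h4).resolve_left h3
  have f2 : a' z = 0 := by
    rw [e2] at h2
    have h3 : κ * (((c - 1 : ℕ) : ℂ) * (T s / ((‖T s‖ : ℝ) : ℂ)) ^ (c - 1 - 1)) ≠ 0 := by
      refine mul_ne_zero ?_ (mul_ne_zero ?_ (pow_ne_zero _ (div_ne_zero hT0 hnC0)))
      · exact norm_ne_zero_iff.1 (by rw [H.hκ]; norm_num)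
      · exact_mod_cast (by omega : c - 1 ≠ 0)
    have h4 : (κ * (((c - 1 : ℕ) : ℂ) * (T s / ((‖T s‖ : ℝ) : ℂ)) ^ (c - 1 - 1))) * a' z = 0 := h2
    exact (mul_eq_zero.1 h4).resolve_left h3
  have f3 : T' z = 0 := by rw [e3, f1, f2]; simp
  exact hinj (by rw [f3, map_zero])

/-- The vectors orthogonal to two vectors are the multiples of their cross product. -/
theorem exists_smul_cross {a b v : V}
    (hx : (![a 1 * b 2 - a 2 * b 1, -(a 0 * b 2 - a 2 * b 0), a 0 * b 1 - a 1 * b 0] : V) ≠ 0)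
    (ha : a 0 * v 0 + a 1 * v 1 + a 2 * v 2 = 0) (hb : b 0 * v 0 + b 1 * v 1 + b 2 * v 2 = 0) :
    ∃ z : ℂ, v = z •
      (![a 1 * b 2 - a 2 * b 1, -(a 0 * b 2 - a 2 * b 0), a 0 * b 1 - a 1 * b 0] : V) := by
  obtain ⟨k, hk⟩ := Function.ne_iff.1 hx
  fin_cases k
  · simp at hk
    refine ⟨v 0 / (a 1 * b 2 - a 2 * b 1), ?_⟩
    ext j
    fin_cases j
    · simp; field_simp
    · simp; field_simp; linear_combination b 2 * ha - a 2 * hb
    · simp; field_simp; linear_combination a 1 * hb - b 1 * ha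
  · simp at hk
    have hk' : -(a 0 * b 2 - a 2 * b 0) ≠ 0 := by
      intro h
      apply hk
      linear_combination h
    refine ⟨v 1 / -(a 0 * b 2 - a 2 * b 0), ?_⟩
    ext j
    fin_cases j
    · simp; field_simp; linear_combination a 2 * hb - b 2 * ha
    · simp; field_simp
    · simp; field_simp; linear_combination b 0 * ha - a 0 * hb
  · simp at hk
    refine ⟨v 2 / (a 0 * b 1 - a 1 * b 0), ?_⟩
    ext j
    fin_cases j
    · simp; field_simp; linear_combination b 1 * ha - a 1 * hb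
    · simp; field_simp; linear_combination a 0 * hb - b 0 * ha
    · simp; field_simp

/-- The complex valued function `⟨ξ_t(x), x⟩`. -/
noncomputable def lamF (F E : V → ℂ → ℂ) (p : V × ℂ) : ℂ := lam (F · p.2) (E · p.2) p.1

theorem contDiffAt_lamF {F E : V → ℂ → ℂ} {p₀ : V × ℂ}
    (hF : AnalyticAt ℂ (fun p : V × ℂ => F p.1 p.2) p₀)
    (hE : AnalyticAt ℂ (fun p : V × ℂ => E p.1 p.2) p₀) {n : WithTop ℕ∞} :
    ContDiffAt ℝ n (lamF F E) p₀ := by
  have hm : ∀ i j : Fin 3, ContDiffAt ℝ n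
      (fun p : V × ℂ => minor2 i j (F · p.2) (E · p.2) p.1) p₀ := by
    intro i j
    have h1 : AnalyticAt ℂ (fun p : V × ℂ => minor2 i j (F · p.2) (E · p.2) p.1) p₀ :=
      ((analyticAt_pd hF i).mul (analyticAt_pd hE j)).sub
        ((analyticAt_pd hF j).mul (analyticAt_pd hE i))
    exact (h1.contDiffAt (n := n)).restrict_scalars ℝ
  have hc : ∀ k : Fin 3, ContDiffAt ℝ n (fun p : V × ℂ => (starRingEnd ℂ) (p.1 k)) p₀ := by
    intro k
    exact (Complex.conjCLE.contDiff.comp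
      ((contDiff_apply ℝ ℂ k).comp contDiff_fst)).contDiffAt
  have h : lamF F E = fun p : V × ℂ =>
      minor2 1 2 (F · p.2) (E · p.2) p.1 * (starRingEnd ℂ) (p.1 0) +
      -minor2 0 2 (F · p.2) (E · p.2) p.1 * (starRingEnd ℂ) (p.1 1) +
      minor2 0 1 (F · p.2) (E · p.2) p.1 * (starRingEnd ℂ) (p.1 2) := by
    funext p
    simp [lamF, lam, xi, Fin.sum_univ_three]
  rw [h]
  exact (((hm 1 2).mul (hc 0)).add ((hm 0 2).neg.mul (hc 1))).add ((hm 0 1).mul (hc 2))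

/-- The map whose level sets contain the touching points. -/
noncomputable def Psi (F E : V → ℂ → ℂ) (p : V × ℂ) : ℂ × ℂ × ℝ × ℂ × ℂ :=
  (F p.1 p.2, E p.1 p.2, nsq p.1, lamF F E p / ‖lamF F E p‖, p.2)

theorem fderiv_apply_eq {f : V → ℂ} {x : V} (v : V) :
    fderiv ℂ f x v = pd 0 f x * v 0 + pd 1 f x * v 1 + pd 2 f x * v 2 := by
  have h : v = v 0 • (Pi.single 0 1 : V) + v 1 • (Pi.single 1 1 : V) +
      v 2 • (Pi.single 2 1 : V) := by
    ext j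
    fin_cases j <;> simp
  conv_lhs => rw [h]
  simp only [map_add, map_smul, smul_eq_mul, pd]
  ring

/-- `Psi` is locally injective at the points of the curve where `⟨ξ, x⟩ ≠ 0` and the pair
(size, argument) has injective differential along the curve. -/
theorem psi_injOn {F E : V → ℂ → ℂ} {x₀ : V}
    (hF : AnalyticAt ℂ (fun p : V × ℂ => F p.1 p.2) (x₀, 0))
    (hE : AnalyticAt ℂ (fun p : V × ℂ => E p.1 p.2) (x₀, 0)) {γ : ℂ → V} {s a : ℂ}
    (hγ : AnalyticAt ℂ γ s) (hγs : γ s = x₀) (hxi : xi (F · 0) (E · 0) x₀ = a • deriv γ s)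
    (hxi0 : xi (F · 0) (E · 0) x₀ ≠ 0) (hlam : lamF F E (x₀, 0) ≠ 0)
    (htan : ∀ (N' : ℂ →L[ℝ] ℝ) (A' : ℂ →L[ℝ] ℂ) (z : ℂ),
      HasFDerivAt (fun z => nsq (γ z)) N' s →
      HasFDerivAt (fun z => lamF F E (γ z, 0) / ‖lamF F E (γ z, 0)‖) A' s →
      N' z = 0 → A' z = 0 → z = 0) :
    ∃ U ∈ 𝓝 (x₀, (0 : ℂ)), InjOn (Psi F E) U := by
  have cF : ContDiffAt ℝ 1 (fun p : V × ℂ => F p.1 p.2) (x₀, 0) :=
    (hF.contDiffAt (n := 1)).restrict_scalars ℝ
  have cE : ContDiffAt ℝ 1 (fun p : V × ℂ => E p.1 p.2) (x₀, 0) :=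
    (hE.contDiffAt (n := 1)).restrict_scalars ℝ
  have cN : ContDiffAt ℝ 1 (fun p : V × ℂ => nsq p.1) (x₀, 0) :=
    (contDiff_nsq.comp contDiff_fst).contDiffAt
  have cL : ContDiffAt ℝ 1 (lamF F E) (x₀, 0) := contDiffAt_lamF hF hE
  have cA : ContDiffAt ℝ 1 (fun p => lamF F E p / ‖lamF F E p‖) (x₀, 0) := by
    simp only [div_ofReal_eq]
    exact ((cL.norm ℝ hlam).inv (norm_ne_zero_iff.2 hlam)).smul cL
  have cS : ContDiffAt ℝ 1 (fun p : V × ℂ => p.2) (x₀, 0) := contDiff_snd.contDiffAt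
  have cP : ContDiffAt ℝ 1 (Psi F E) (x₀, 0) := cF.prodMk (cE.prodMk (cN.prodMk (cA.prodMk cS)))
  refine exists_injOn_of_injective (cP.hasStrictFDerivAt (by simp)) ?_
  have hP' : fderiv ℝ (Psi F E) (x₀, 0) =
      (fderiv ℝ (fun p : V × ℂ => F p.1 p.2) (x₀, 0)).prod
      ((fderiv ℝ (fun p : V × ℂ => E p.1 p.2) (x₀, 0)).prod
      ((fderiv ℝ (fun p : V × ℂ => nsq p.1) (x₀, 0)).prod
      ((fderiv ℝ (fun p => lamF F E p / ‖lamF F E p‖) (x₀, 0)).prod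
      (fderiv ℝ (fun p : V × ℂ => p.2) (x₀, 0))))) :=
    ((cF.differentiableAt (by simp)).hasFDerivAt.prodMk
      ((cE.differentiableAt (by simp)).hasFDerivAt.prodMk
      ((cN.differentiableAt (by simp)).hasFDerivAt.prodMk
      ((cA.differentiableAt (by simp)).hasFDerivAt.prodMk
      (cS.differentiableAt (by simp)).hasFDerivAt)))).fderiv
  rw [hP']
  refine (injective_iff_map_eq_zero _).2 ?_
  rintro ⟨v, τ⟩ hv
  simp only [ContinuousLinearMap.prod_apply, Prod.mk_eq_zero] at hv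
  obtain ⟨v1, v2, v3, v4, v5⟩ := hv
  have hτ : τ = 0 := by
    have : fderiv ℝ (fun p : V × ℂ => p.2) (x₀, 0) = ContinuousLinearMap.snd ℝ V ℂ :=
      hasFDerivAt_snd.fderiv
    rw [this] at v5
    exact v5
  subst hτ
  have hin : HasFDerivAt (fun x : V => (x, (0 : ℂ))) (ContinuousLinearMap.inl ℝ V ℂ) x₀ :=
    hasFDerivAt_prodMk_left x₀ 0
  have hinC : HasFDerivAt (fun x : V => (x, (0 : ℂ))) (ContinuousLinearMap.inl ℂ V ℂ) x₀ :=
    hasFDerivAt_prodMk_left x₀ 0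
  have hker : ∀ {G : V → ℂ → ℂ}, AnalyticAt ℂ (fun p : V × ℂ => G p.1 p.2) (x₀, 0) →
      fderiv ℝ (fun p : V × ℂ => G p.1 p.2) (x₀, 0) (v, 0) = 0 →
      fderiv ℂ (G · 0) x₀ v = 0 := by
    intro G hG h
    have h1 := hG.differentiableAt.hasFDerivAt
    have h2 : fderiv ℝ (fun p : V × ℂ => G p.1 p.2) (x₀, 0) =
        (fderiv ℂ (fun p : V × ℂ => G p.1 p.2) (x₀, 0)).restrictScalars ℝ :=
      (h1.restrictScalars ℝ).fderiv
    have h3 : HasFDerivAt (G · 0) ((fderiv ℂ (fun p : V × ℂ => G p.1 p.2) (x₀, 0)).comp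
        (ContinuousLinearMap.inl ℂ V ℂ)) x₀ :=
      HasFDerivAt.comp (g := fun p : V × ℂ => G p.1 p.2) x₀ h1 hinC
    rw [h3.fderiv]
    rw [h2] at h
    simpa using h
  have hvF := hker hF v1
  have hvE := hker hE v2
  rw [fderiv_apply_eq] at hvF hvE
  obtain ⟨z, hz⟩ := exists_smul_cross (a := fun i => pd i (F · 0) x₀)
    (b := fun i => pd i (E · 0) x₀) (v := v) hxi0 hvF hvE
  have hz' : v = (z * a) • deriv γ s := by
    rw [mul_smul, ← hxi]
    exact hz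
  -- the curve in the product
  have hγR : HasFDerivAt (fun w => (γ w, (0 : ℂ))) ((ContinuousLinearMap.inl ℝ V ℂ).comp
      ((ContinuousLinearMap.toSpanSingleton ℂ (deriv γ s)).restrictScalars ℝ)) s := by
    have h1 : HasFDerivAt γ (ContinuousLinearMap.toSpanSingleton ℂ (deriv γ s)) s :=
      hγ.differentiableAt.hasDerivAt.hasFDerivAt
    subst hγs
    exact HasFDerivAt.comp s hin (h1.restrictScalars ℝ)
  have hcomp : ∀ {W : Type} [NormedAddCommGroup W] [NormedSpace ℝ W] (g : V × ℂ → W),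
      DifferentiableAt ℝ g (x₀, 0) → HasFDerivAt (fun w => g (γ w, (0 : ℂ)))
        ((fderiv ℝ g (x₀, 0)).comp ((ContinuousLinearMap.inl ℝ V ℂ).comp
      ((ContinuousLinearMap.toSpanSingleton ℂ (deriv γ s)).restrictScalars ℝ))) s := by
    intro W _ _ g hg
    subst hγs
    exact HasFDerivAt.comp s hg.hasFDerivAt hγR
  have hval : ((ContinuousLinearMap.inl ℝ V ℂ).comp
      ((ContinuousLinearMap.toSpanSingleton ℂ (deriv γ s)).restrictScalars ℝ)) (z * a) =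
      (v, 0) := by
    simp [hz']
  have hza := htan _ _ (z * a) (hcomp (fun p : V × ℂ => nsq p.1) (cN.differentiableAt (by simp)))
    (hcomp _ (cA.differentiableAt (by simp)))
    (by rw [ContinuousLinearMap.comp_apply, hval]; exact v3)
    (by rw [ContinuousLinearMap.comp_apply, hval]; exact v4)
  rw [hza, zero_smul] at hz'
  rw [hz', Prod.mk_zero_zero]

end Vale.Agent.P298.H365
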