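import Vale.Agent.P298.H365.Count3

/-!
Count of touching points: row T1-C.
-/

namespace Vale.Agent.P298.H365

open Filter Topology Metric Vale.Agent.P298 Vale.Agent.P298.H462 Set

theorem norm_le_of_nsq {x : V} {ρ : ℝ} (hρ : 0 ≤ ρ) (h : nsq x = ρ ^ 2) : ‖x‖ ≤ ρ := by
  refine (pi_norm_le_iff_of_nonneg hρ).2 fun k => ?_
  have h1 : ‖x k‖ ^ 2 ≤ ρ ^ 2 := by
    rw [← h]
    exact Finset.single_le_sum (f := fun k => ‖x k‖ ^ 2) (fun _ _ => by positivity)
      (Finset.mem_univ k)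
  exact (pow_le_pow_iff_left₀ (norm_nonneg _) hρ two_ne_zero).1 h1

theorem isCompact_sphere_nsq {ρ : ℝ} (hρ : 0 ≤ ρ) : IsCompact {x : V | nsq x = ρ ^ 2} := by
  refine Metric.isCompact_of_isClosed_isBounded ?_ ?_
  · exact isClosed_eq (contDiff_nsq (n := 0)).continuous continuous_const
  · refine (Metric.isBounded_closedBall (x := (0 : V)) (r := ρ)).subset fun x hx => ?_
    rw [mem_closedBall_zero_iff]
    exact norm_le_of_nsq hρ hx

theorem top_arg {l ω : ℂ} (hω : ‖ω‖ = 1) {y : ℝ} (hy : 0 < y) (h : ω * l = y * Complex.I) :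
    l / ‖l‖ = Complex.I / ω := by
  have hω0 : ω ≠ 0 := norm_ne_zero_iff.1 (by rw [hω]; norm_num)
  have h1 : ‖l‖ = y := by
    have := congrArg norm h
    rwa [norm_mul, norm_mul, hω, one_mul, Complex.norm_I, mul_one, Complex.norm_real,
      Real.norm_of_nonneg hy.le] at this
  have h2 : l = y * Complex.I / ω := by rw [eq_div_iff hω0, mul_comm, h]
  rw [h1, h2]
  have : (y : ℂ) ≠ 0 := by exact_mod_cast hy.ne'
  field_simp

/-- The data of the curve at `t = 0`. -/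
structure Data (f e : V → ℂ) (k : ℕ) (γ : Fin k → ℂ → V) (c : Fin k → ℕ) (ρ : ℝ)
    (m : Fin k → ℕ) (κ : Fin k → ℂ) (T : Fin k → ℂ → ℂ) (r : Fin k → ℝ) : Prop where
  normal : ∀ i, Normal (γ i) (fun s => xi f e (γ i s)) (c i) (m i) (κ i) (T i) (r i)
  cover : ∀ x : V, nsq x = ρ ^ 2 → f x = 0 → e x = 0 → ∃ i, ∃ s ∈ ball (0 : ℂ) (r i), s ≠ 0 ∧
    x = γ i s

/-- The count for `t = 0`. -/
theorem Data.count {f e : V → ℂ} {k : ℕ} {γ : Fin k → ℂ → V} {c : Fin k → ℕ} {ρ : ℝ}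
    {m : Fin k → ℕ} {κ : Fin k → ℂ} {T : Fin k → ℂ → ℂ} {r : Fin k → ℝ}
    (D : Data f e k γ c ρ m κ T r) (hc : ∀ i, 2 ≤ c i) {ω : ℂ} (hω : ‖ω‖ = 1)
    (S : Finset V) (hS : ∀ x ∈ S, Top f e ρ ω x) : S.card ≤ ∑ i, (c i - 1) := by
  classical
  have hex : ∀ x : V, x ∈ S → ∃ i, ∃ s, s ∈ ball (0 : ℂ) (r i) ∧ s ≠ 0 ∧ x = γ i s := by
    intro x hx
    obtain ⟨h1, h2, h3, -⟩ := hS x hx
    obtain ⟨i, s, hs, hs0, hxs⟩ := D.cover x h1 h2 h3
    exact ⟨i, s, hs, hs0, hxs⟩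
  rcases S.eq_empty_or_nonempty with rfl | ⟨x₀, hx₀⟩
  · simp
  have : Nonempty (Fin k) := ⟨(hex x₀ hx₀).choose⟩
  choose! I s hs hs0 hxs using hex
  set Z : Fin k → Finset ℂ := fun i =>
    (Polynomial.nthRoots (c i - 1) (Complex.I / ω / κ i)).toFinset with hZ
  have hcard : (Finset.univ.sigma Z).card ≤ ∑ i, (c i - 1) := by
    rw [Finset.card_sigma]
    exact Finset.sum_le_sum fun i _ =>
      (Multiset.toFinset_card_le _).trans (Polynomial.card_nthRoots _ _)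
  refine le_trans ?_ hcard
  refine Finset.card_le_card_of_injOn
    (fun x => (⟨I x, T (I x) (s x) / ‖T (I x) (s x)‖⟩ : Σ _ : Fin k, ℂ)) ?_ ?_
  · intro x hx
    have N := D.normal (I x)
    have hxs' := hxs x hx
    simp only [Finset.coe_sigma, Finset.coe_univ, Set.mem_sigma_iff, Set.mem_univ, true_and,
      hZ, Finset.mem_coe, Multiset.mem_toFinset]
    have hcpos : 0 < c (I x) - 1 := by have := hc (I x); omega
    rw [Polynomial.mem_nthRoots hcpos]
    obtain ⟨-, -, -, y, hy, hyl⟩ := hS x hx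
    have h1 := top_arg hω hy hyl
    rw [lam_eq] at h1
    have h2 := N.arg (s x) (hs x hx) (hs0 x hx)
    simp only [← hxs'] at h2
    rw [h1] at h2
    have hκ : κ (I x) ≠ 0 := norm_ne_zero_iff.1 (by rw [N.hκ]; norm_num)
    rw [h2, mul_div_cancel_left₀ _ hκ]
  · intro x hx x' hx' hxx
    simp only [Sigma.mk.injEq] at hxx
    obtain ⟨hI, hq⟩ := hxx
    have hq' : T (I x) (s x) / ‖T (I x) (s x)‖ = T (I x') (s x') / ‖T (I x') (s x')‖ :=
      eq_of_heq hq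
    have N := D.normal (I x)
    have n1 := N.size (s x) (hs x hx) (hs0 x hx)
    rw [← hxs x hx, (hS x hx).1] at n1
    have hs' := hs x' hx'
    have hx's := hxs x' hx'
    rw [← hI] at hs' hx's hq'
    have n2 := N.size (s x') hs' (hs0 x' hx')
    rw [← hx's, (hS x' hx').1] at n2
    have hmpos : 2 * m (I x) ≠ 0 := by have := N.mpos; omega
    have n3 : ‖T (I x) (s x)‖ = ‖T (I x) (s x')‖ :=
      (pow_left_inj₀ (norm_nonneg _) (norm_nonneg _) hmpos).1 (n1.symm.trans n2)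
    have hne := norm_ne_zero_iff.2 (N.ne (s x) (hs x hx) (hs0 x hx)).1
    rw [← n3] at hq'
    have hne' : ((‖T (I x) (s x)‖ : ℝ) : ℂ) ≠ 0 := by exact_mod_cast hne
    have hT : T (I x) (s x) = T (I x) (s x') := by
      field_simp at hq'
      exact hq'
    have hss := N.inj (hs x hx) hs' hT
    rw [hxs x hx, hx's, hss]

end Vale.Agent.P298.H365
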