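import Vale.Agent.P298.H365.Count4

/-!
Count of touching points: row T1-C, the final statement.
-/

namespace Vale.Agent.P298.H365

open Filter Topology Metric Vale.Agent.P298 Vale.Agent.P298.H462 Set

/-- The values of the family on the sphere of radius `ρ`. -/
structure OnSphere (F E : V → ℂ → ℂ) (ρ : ℝ) (M : ℕ) : Prop where
  pos : 0 < ρ
  holF : ∀ x : V, nsq x = ρ ^ 2 → AnalyticAt ℂ (fun p : V × ℂ => F p.1 p.2) (x, 0)
  holE : ∀ x : V, nsq x = ρ ^ 2 → AnalyticAt ℂ (fun p : V × ℂ => E p.1 p.2) (x, 0)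
  ne : ∀ x : V, nsq x = ρ ^ 2 → F x 0 = 0 → E x 0 = 0 → lamF F E (x, 0) ≠ 0
  inj : ∀ x : V, nsq x = ρ ^ 2 → F x 0 = 0 → E x 0 = 0 →
    ∃ U ∈ 𝓝 (x, (0 : ℂ)), InjOn (Psi F E) U
  count : ∀ ω : ℂ, ‖ω‖ = 1 → ∀ S : Finset V, (∀ x ∈ S, Top (F · 0) (E · 0) ρ ω x) → S.card ≤ M

theorem OnSphere.near_ne {F E : V → ℂ → ℂ} {ρ : ℝ} {M : ℕ} (H : OnSphere F E ρ M) :
    ∀ᶠ t in 𝓝 (0 : ℂ), ∀ x : V, nsq x = ρ ^ 2 → F x t = 0 → E x t = 0 →
      lam (F · t) (E · t) x ≠ 0 := by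
  have h := (isCompact_sphere_nsq (ρ := ρ) H.pos.le).eventually_forall_of_forall_eventually
    (x₀ := (0 : ℂ)) (P := fun t x => F x t = 0 → E x t = 0 → lam (F · t) (E · t) x ≠ 0) ?_
  · exact h
  intro x hx
  have hsw : Tendsto (fun z : ℂ × V => (z.2, z.1)) (𝓝 (0, x)) (𝓝 (x, 0)) :=
    (continuous_snd.prodMk continuous_fst).tendsto _
  by_cases hF : F x 0 = 0
  · by_cases hE : E x 0 = 0
    · have h1 : ∀ᶠ p in 𝓝 (x, (0 : ℂ)), lamF F E p ≠ 0 :=
        (contDiffAt_lamF (n := 0) (H.holF x hx) (H.holE x hx)).continuousAt.eventually_ne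
          (H.ne x hx hF hE)
      filter_upwards [hsw.eventually h1] with z hz _ _
      exact hz
    · filter_upwards [hsw.eventually ((H.holE x hx).continuousAt.eventually_ne hE)]
        with z hz _ h2
      exact absurd h2 hz
  · filter_upwards [hsw.eventually ((H.holF x hx).continuousAt.eventually_ne hF)] with z hz h1
    exact absurd h1 hz

theorem psi_eq_of_top {F E : V → ℂ → ℂ} {ρ : ℝ} {t ω : ℂ} (hω : ‖ω‖ = 1) {x : V}
    (h : Top (F · t) (E · t) ρ ω x) : Psi F E (x, t) = (0, 0, ρ ^ 2, Complex.I / ω, t) := by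
  obtain ⟨h1, h2, h3, y, hy, h4⟩ := h
  have h5 := top_arg hω hy h4
  simp only at h2 h3
  simp only [Psi, h2, h3, h1, Prod.mk.injEq, true_and, and_true]
  exact h5

theorem OnSphere.near_count {F E : V → ℂ → ℂ} {ρ : ℝ} {M : ℕ} (H : OnSphere F E ρ M) :
    ∀ᶠ t in 𝓝 (0 : ℂ), ∀ ω : ℂ, ‖ω‖ = 1 → ∀ S : Finset V,
      (∀ x ∈ S, Top (F · t) (E · t) ρ ω x) → S.card ≤ M := by
  classical
  set K : Set ((Fin (M + 1) → V) × ℂ) :=
    (Set.univ.pi fun _ => {x : V | nsq x = ρ ^ 2}) ×ˢ sphere (0 : ℂ) 1 with hK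
  have hKc : IsCompact K :=
    (isCompact_univ_pi fun _ => isCompact_sphere_nsq H.pos.le).prod (isCompact_sphere _ _)
  have h := hKc.eventually_forall_of_forall_eventually (x₀ := (0 : ℂ))
    (P := fun t q => q ∈ K → ¬ (Function.Injective q.1 ∧
      ∀ j, Top (F · t) (E · t) ρ q.2 (q.1 j))) ?_
  · filter_upwards [h] with t ht ω hω S hS
    by_contra hcard
    push Not at hcard
    obtain ⟨S', hS', hS'c⟩ := Finset.exists_subset_card_eq (Nat.succ_le_of_lt hcard)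
    set y : Fin (M + 1) → V := fun j => (S'.equivFinOfCardEq hS'c).symm j with hy
    have hyS : ∀ j, y j ∈ S := fun j => hS' ((S'.equivFinOfCardEq hS'c).symm j).2
    have hq : (y, ω) ∈ K := by
      rw [hK]
      refine ⟨?_, ?_⟩
      · intro j _
        exact (hS _ (hyS j)).1
      · simp [hω]
    refine ht (y, ω) hq hq ⟨?_, fun j => hS _ (hyS j)⟩
    intro j l hjl
    exact (S'.equivFinOfCardEq hS'c).symm.injective (Subtype.ext hjl)
  rintro ⟨x, ω⟩ hxω
  have hx : ∀ j, nsq (x j) = ρ ^ 2 := fun j => hxω.1 j (Set.mem_univ j)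
  have hω : ‖ω‖ = 1 := by simpa using hxω.2
  have hω0 : ω ≠ 0 := norm_ne_zero_iff.1 (by rw [hω]; norm_num)
  have hsw : ∀ j, Tendsto (fun z : ℂ × ((Fin (M + 1) → V) × ℂ) => (z.2.1 j, z.1))
      (𝓝 (0, (x, ω))) (𝓝 (x j, 0)) := fun j =>
    (((continuous_apply j).comp (continuous_fst.comp continuous_snd)).prodMk
      continuous_fst).tendsto _
  have hsw2 : Tendsto (fun z : ℂ × ((Fin (M + 1) → V) × ℂ) => z.2.2)
      (𝓝 (0, (x, ω))) (𝓝 ω) := (continuous_snd.comp continuous_snd).tendsto _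
  by_cases hall : ∀ j, F (x j) 0 = 0 ∧ E (x j) 0 = 0 ∧
      lamF F E (x j, 0) / ‖lamF F E (x j, 0)‖ = Complex.I / ω
  · -- all points are touching points for `t = 0`
    have htop : ∀ j, Top (F · 0) (E · 0) ρ ω (x j) := by
      intro j
      obtain ⟨h1, h2, h3⟩ := hall j
      have h4 := H.ne (x j) (hx j) h1 h2
      have h5 : ((‖lamF F E (x j, 0)‖ : ℝ) : ℂ) ≠ 0 := by
        exact_mod_cast norm_ne_zero_iff.2 h4
      refine ⟨hx j, h1, h2, ‖lamF F E (x j, 0)‖, norm_pos_iff.2 h4, ?_⟩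
      rw [div_eq_div_iff h5 hω0] at h3
      change ω * lamF F E (x j, 0) = _
      rw [mul_comm, h3, mul_comm]
    have hninj : ¬ Function.Injective x := by
      intro hinj
      have h1 := H.count ω hω (Finset.univ.image x) (by
        intro v hv
        obtain ⟨j, -, rfl⟩ := Finset.mem_image.1 hv
        exact htop j)
      rw [Finset.card_image_of_injective _ hinj, Finset.card_univ, Fintype.card_fin] at h1
      omega
    simp only [Function.Injective, not_forall] at hninj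
    obtain ⟨j, l, hjl, hne⟩ := hninj
    obtain ⟨U, hU, hUinj⟩ := H.inj (x j) (hx j) (hall j).1 (hall j).2.1
    have hU' : U ∈ 𝓝 (x l, (0 : ℂ)) := by rw [← hjl]; exact hU
    filter_upwards [(hsw j).eventually hU, (hsw l).eventually hU'] with z hz1 hz2 hzK hz3
    obtain ⟨hz3, hz4⟩ := hz3
    have hzω : ‖z.2.2‖ = 1 := by simpa using hzK.2
    have h1 := psi_eq_of_top hzω (hz4 j)
    have h2 := psi_eq_of_top hzω (hz4 l)
    have h3 := hUinj hz1 hz2 (h1.trans h2.symm)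
    simp only [Prod.mk.injEq, and_true] at h3
    exact hne (hz3 h3)
  · push Not at hall
    obtain ⟨j, hj⟩ := hall
    by_cases hF : F (x j) 0 = 0
    · by_cases hE : E (x j) 0 = 0
      · have h4 := H.ne (x j) (hx j) hF hE
        have h3 := hj hF hE
        have hcL := (contDiffAt_lamF (n := 0) (H.holF _ (hx j)) (H.holE _ (hx j))).continuousAt
        have h5 : ((‖lamF F E (x j, 0)‖ : ℝ) : ℂ) ≠ 0 := by
          exact_mod_cast norm_ne_zero_iff.2 h4
        have hc1 : ContinuousAt (fun p => lamF F E p / ‖lamF F E p‖) (x j, (0 : ℂ)) :=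
          hcL.div (Complex.continuous_ofReal.continuousAt.comp hcL.norm) h5
        have hc2 : Tendsto (fun z : ℂ × ((Fin (M + 1) → V) × ℂ) =>
            lamF F E (z.2.1 j, z.1) / ‖lamF F E (z.2.1 j, z.1)‖ - Complex.I / z.2.2)
            (𝓝 (0, (x, ω)))
            (𝓝 (lamF F E (x j, 0) / ‖lamF F E (x j, 0)‖ - Complex.I / ω)) :=
          (hc1.tendsto.comp (hsw j)).sub (Filter.Tendsto.div tendsto_const_nhds hsw2 hω0)
        filter_upwards [hc2.eventually_ne (sub_ne_zero.2 h3)] with z hz hzK hz3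
        have hzω : ‖z.2.2‖ = 1 := by simpa using hzK.2
        obtain ⟨-, -, -, y, hy, h6⟩ := hz3.2 j
        exact hz (sub_eq_zero.2 (top_arg hzω hy h6))
      · filter_upwards [(hsw j).eventually ((H.holE _ (hx j)).continuousAt.eventually_ne hE)]
          with z hz _ hz3
        exact hz (hz3.2 j).2.2.1
    · filter_upwards [(hsw j).eventually ((H.holF _ (hx j)).continuousAt.eventually_ne hF)]
        with z hz _ hz3
      exact hz (hz3.2 j).2.1

/-- Row T1-C. -/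
theorem count : CountStmt := by
  intro F E ρ₀ δ₀ hFam k γ c u R hB hc
  have hR := hB.pos
  have hnorm : ∀ i, ∃ m κ T r, r ≤ R ∧
      Normal (γ i) (fun s => xi (F · 0) (E · 0) (γ i s)) (c i) m κ T r := by
    intro i
    refine exists_normal (hB.hol i 0 (mem_ball_self hR)) (hB.zero i) ?_
      (hB.hol_u i 0 (mem_ball_self hR)) (hB.u_ne i 0 (mem_ball_self hR)) ?_ (hc i) hR
    · intro h
      have h1 : ∀ᶠ s in 𝓝[≠] (0 : ℂ), γ i s = 0 ∧ s ∈ ball (0 : ℂ) R := by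
        filter_upwards [nhdsWithin_le_nhds h,
          nhdsWithin_le_nhds (isOpen_ball.mem_nhds (mem_ball_self hR))] with s h1 h2
        exact ⟨h1, h2⟩
      obtain ⟨s, ⟨h2, h3⟩, h4⟩ := (h1.and self_mem_nhdsWithin).exists
      rcases hB.inj i i s h3 0 (mem_ball_self hR) (by rw [h2, hB.zero]) with h5 | h5
      · exact h4 h5.1
      · exact h4 h5.2
    · filter_upwards [isOpen_ball.mem_nhds (mem_ball_self hR)] with s hs
      exact hB.ode i s hs
  choose m κ T r hrR hN using hnorm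
  obtain ⟨r0, hr0, hr0r⟩ : ∃ r0 : ℝ, 0 < r0 ∧ ∀ i, r0 ≤ r i := by
    have h1 : ∀ᶠ x in 𝓝[>] (0 : ℝ), ∀ i, x ≤ r i := by
      refine eventually_all.2 fun i => ?_
      exact nhdsWithin_le_nhds ((eventually_lt_nhds (hN i).rpos).mono fun x hx => hx.le)
    obtain ⟨x, hx, hx0⟩ := (h1.and self_mem_nhdsWithin).exists
    exact ⟨x, hx0, hx⟩
  obtain ⟨ε0, hε0, hcov⟩ := Metric.eventually_nhds_iff_ball.1 (hB.cover r0 hr0)
  refine ⟨min ε0 ρ₀, lt_min hε0 hFam.rpos, fun ρ hρ hρ1 => ?_⟩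
  have hin : ∀ x : V, nsq x = ρ ^ 2 → x ∈ ball (0 : V) ε0 ∧ x ∈ ball (0 : V) ρ₀ := by
    intro x hx
    have h1 := norm_le_of_nsq hρ.le hx
    rw [mem_ball_zero_iff, mem_ball_zero_iff]
    exact ⟨h1.trans_lt (hρ1.trans_le (min_le_left _ _)),
      h1.trans_lt (hρ1.trans_le (min_le_right _ _))⟩
  have hcover : ∀ x : V, nsq x = ρ ^ 2 → F x 0 = 0 → E x 0 = 0 →
      ∃ i, ∃ s ∈ ball (0 : ℂ) (r i), s ≠ 0 ∧ x = γ i s := by
    intro x hx hF hE
    obtain ⟨i, s, hs, hxs⟩ := hcov x (hin x hx).1 hF hE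
    refine ⟨i, s, ball_subset_ball (hr0r i) hs, ?_, hxs⟩
    rintro rfl
    rw [hB.zero] at hxs
    subst hxs
    have : nsq (0 : V) = 0 := by simp [nsq]
    rw [this] at hx
    have : 0 < ρ ^ 2 := by positivity
    linarith
  have D : Data (F · 0) (E · 0) k γ c ρ m κ T r := ⟨hN, hcover⟩
  have h0δ : (0 : ℂ) ∈ ball (0 : ℂ) δ₀ := mem_ball_self hFam.dpos
  have H : OnSphere F E ρ (∑ i, (c i - 1)) := by
    refine ⟨hρ, fun x hx => hFam.holF x (hin x hx).2 0 h0δ,
      fun x hx => hFam.holE x (hin x hx).2 0 h0δ, ?_, ?_, fun ω hω S hS => D.count hc hω S hS⟩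
    · intro x hx hF hE
      obtain ⟨i, s, hs, hs0, rfl⟩ := hcover x hx hF hE
      exact ((hN i).ne s hs hs0).2.2
    · intro x hx hF hE
      obtain ⟨i, s, hs, hs0, hxs⟩ := hcover x hx hF hE
      have hsR : s ∈ ball (0 : ℂ) R := ball_subset_ball (hrR i) hs
      have hne : lamF F E (x, 0) ≠ 0 := by
        rw [hxs]
        exact ((hN i).ne s hs hs0).2.2
      have hx0 : x ≠ 0 := by rw [hxs]; exact ((hN i).ne s hs hs0).2.1
      refine psi_injOn (hFam.holF x (hin x hx).2 0 h0δ) (hFam.holE x (hin x hx).2 0 h0δ)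
        (γ := γ i) (s := s) (a := (u i s)⁻¹ * s ^ c i) (hB.hol i s hsR) hxs.symm ?_
        (hFam.xi_ne x (hin x hx).2 0 h0δ hF hE hx0) hne ?_
      · rw [mul_smul, hB.ode i s hsR, smul_smul, inv_mul_cancel₀ (hB.u_ne i s hsR), one_smul,
          ← hxs]
      · intro N' A' z h1 h2 h3 h4
        exact (hN i).tangent (hc i) hs hs0 h1 h2 h3 h4
  obtain ⟨δ, hδ, hball⟩ := Metric.eventually_nhds_iff_ball.1 (H.near_ne.and H.near_count)
  exact ⟨δ, hδ, fun t ht => ⟨(hball t ht).1, (hball t ht).2⟩⟩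

end Vale.Agent.P298.H365
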