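import Vale.Agent.P271.H242.PolyInt

/-!
# P298, row LC-AN: functions of one variable with nearly constant second derivative

`G' x` is close to `A (x - n)` on the convex set `K`. Then `A (G - G n)` is bounded by `|G'|²`,
`G` takes every value at most 4 times, and `∫_K 1/|G| ≤ C |G n|^(-ε)`.
-/

open MeasureTheory Metric Set
open scoped ENNReal

namespace Vale.Agent.P298.H365.LcAn

/-- `G'` is close to `A (x - n)` on the convex set `K` -/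
structure QD (G G' : ℂ → ℂ) (A n : ℂ) (K : Set ℂ) : Prop where
  conv : Convex ℝ K
  der : ∀ x ∈ K, HasDerivAt G (G' x) x
  A0 : A ≠ 0
  hn : n ∈ K
  bd : ∀ x ∈ K, ‖G' x - A * (x - n)‖ ≤ ‖A‖ / 8 * ‖x - n‖

variable {G G' : ℂ → ℂ} {A n : ℂ} {K : Set ℂ}

lemma QD.mv (h : QD G G' A n K) {x y : ℂ} (hx : x ∈ K) (hy : y ∈ K) {M : ℝ}
    (hxM : ‖x - n‖ ≤ M) (hyM : ‖y - n‖ ≤ M) :
    ‖(G x - A / 2 * (x - n) ^ 2) - (G y - A / 2 * (y - n) ^ 2)‖ ≤ ‖A‖ / 8 * M * ‖x - y‖ := by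
  have hc : Convex ℝ (K ∩ closedBall n M) := h.conv.inter (convex_closedBall n M)
  have h1 : ∀ z ∈ K ∩ closedBall n M, HasDerivWithinAt (fun z => G z - A / 2 * (z - n) ^ 2)
      (G' z - A * (z - n)) (K ∩ closedBall n M) z := by
    intro z hz
    have e1 : HasDerivAt (fun z => A / 2 * (z - n) ^ 2) (A / 2 * (2 * (z - n))) z := by
      have := (((hasDerivAt_id z).sub_const n).pow 2).const_mul (A / 2)
      simpa using this
    have e2 := ((h.der z hz.1).sub e1).hasDerivWithinAt (s := K ∩ closedBall n M)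
    refine e2.congr_deriv ?_
    ring
  have h2 : ∀ z ∈ K ∩ closedBall n M, ‖G' z - A * (z - n)‖ ≤ ‖A‖ / 8 * M := by
    intro z hz
    refine (h.bd z hz.1).trans ?_
    have : ‖z - n‖ ≤ M := by simpa [dist_eq_norm] using hz.2
    have hA : 0 ≤ ‖A‖ / 8 := by positivity
    exact mul_le_mul_of_nonneg_left this hA
  exact hc.norm_image_sub_le_of_norm_hasDerivWithin_le h1 h2
    ⟨hy, by simpa [dist_eq_norm] using hyM⟩ ⟨hx, by simpa [dist_eq_norm] using hxM⟩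

lemma QD.taylor (h : QD G G' A n K) {x : ℂ} (hx : x ∈ K) :
    ‖G x - G n - A / 2 * (x - n) ^ 2‖ ≤ ‖A‖ / 8 * ‖x - n‖ ^ 2 := by
  have h1 := h.mv hx h.hn (M := ‖x - n‖) le_rfl (by simp)
  have e1 : (G x - A / 2 * (x - n) ^ 2) - (G n - A / 2 * (n - n) ^ 2) =
      G x - G n - A / 2 * (x - n) ^ 2 := by ring
  rw [e1] at h1
  refine h1.trans (le_of_eq ?_)
  ring

lemma QD.upper (h : QD G G' A n K) {x : ℂ} (hx : x ∈ K) :
    ‖G x - G n‖ ≤ 5 / 8 * ‖A‖ * ‖x - n‖ ^ 2 := by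
  have h1 := h.taylor hx
  have h2 : ‖A / 2 * (x - n) ^ 2‖ = ‖A‖ / 2 * ‖x - n‖ ^ 2 := by
    rw [norm_mul, norm_div, norm_pow]; norm_num
  have h3 : ‖G x - G n‖ ≤ ‖G x - G n - A / 2 * (x - n) ^ 2‖ + ‖A / 2 * (x - n) ^ 2‖ := by
    have := norm_add_le (G x - G n - A / 2 * (x - n) ^ 2) (A / 2 * (x - n) ^ 2)
    simpa using this
  rw [h2] at h3
  linarith

lemma QD.lower (h : QD G G' A n K) {x : ℂ} (hx : x ∈ K) :
    3 / 8 * ‖A‖ * ‖x - n‖ ^ 2 ≤ ‖G x - G n‖ := by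
  have h1 := h.taylor hx
  have h2 : ‖A / 2 * (x - n) ^ 2‖ = ‖A‖ / 2 * ‖x - n‖ ^ 2 := by
    rw [norm_mul, norm_div, norm_pow]; norm_num
  have h3 : ‖A / 2 * (x - n) ^ 2‖ ≤ ‖G x - G n‖ + ‖G x - G n - A / 2 * (x - n) ^ 2‖ := by
    have := norm_sub_le (G x - G n) (G x - G n - A / 2 * (x - n) ^ 2)
    simpa using this
  rw [h2] at h3
  linarith

lemma QD.dlower (h : QD G G' A n K) {x : ℂ} (hx : x ∈ K) :
    7 / 8 * ‖A‖ * ‖x - n‖ ≤ ‖G' x‖ := by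
  have h1 := h.bd x hx
  have h3 : ‖A * (x - n)‖ ≤ ‖G' x‖ + ‖G' x - A * (x - n)‖ := by
    have := norm_sub_le (G' x) (G' x - A * (x - n))
    simpa using this
  rw [norm_mul] at h3
  linarith

/-- the main inequality -/
lemma QD.main (h : QD G G' A n K) {x : ℂ} (hx : x ∈ K) :
    ‖A‖ * ‖G x - G n‖ ≤ ‖G' x‖ ^ 2 := by
  have h1 := h.upper hx
  have h2 := h.dlower hx
  have hA : 0 ≤ ‖A‖ := norm_nonneg A
  have hx0 : 0 ≤ ‖x - n‖ := norm_nonneg _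
  have h3 : (7 / 8 * ‖A‖ * ‖x - n‖) ^ 2 ≤ ‖G' x‖ ^ 2 :=
    pow_le_pow_left₀ (by positivity) h2 2
  have h4 : ‖A‖ * ‖G x - G n‖ ≤ ‖A‖ * (5 / 8 * ‖A‖ * ‖x - n‖ ^ 2) :=
    mul_le_mul_of_nonneg_left h1 hA
  nlinarith [sq_nonneg (‖A‖ * ‖x - n‖)]

/-- sector with apex `n` in the direction `conj u` -/
def sec (n u : ℂ) : Set ℂ := {x | ‖x - n‖ ≤ 2 * (u * (x - n)).re}

lemma isClosed_sec (n u : ℂ) : IsClosed (sec n u) := by
  refine isClosed_le ?_ ?_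
  · fun_prop
  · exact continuous_const.mul (Complex.continuous_re.comp (by fun_prop))

/-- the four directions -/
noncomputable def dirs : Finset ℂ := {1, -1, Complex.I, -Complex.I}

lemma cover_sec (n x : ℂ) : ∃ u ∈ dirs, x ∈ sec n u := by
  set a := (x - n).re with ha
  set b := (x - n).im with hb
  have h1 : ‖x - n‖ ^ 2 = a ^ 2 + b ^ 2 := by
    rw [← Complex.normSq_eq_norm_sq, Complex.normSq_apply, ha, hb]; ring
  have key : ∀ c : ℝ, 0 ≤ c → a ^ 2 + b ^ 2 ≤ 2 * c ^ 2 → ‖x - n‖ ≤ 2 * c := by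
    intro c hc h
    have : ‖x - n‖ ^ 2 ≤ (2 * c) ^ 2 := by rw [h1]; nlinarith [sq_nonneg c]
    exact abs_le_of_sq_le_sq' this (by positivity) |>.2
  rcases le_total (b ^ 2) (a ^ 2) with h | h
  · rcases le_total 0 a with h0 | h0
    · refine ⟨1, by simp [dirs], ?_⟩
      show ‖x - n‖ ≤ 2 * (1 * (x - n)).re
      rw [one_mul, ← ha]
      exact key a h0 (by linarith)
    · refine ⟨-1, by simp [dirs], ?_⟩
      show ‖x - n‖ ≤ 2 * (-1 * (x - n)).re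
      rw [neg_one_mul, Complex.neg_re, ← ha]
      exact key (-a) (by linarith) (by nlinarith)
  · rcases le_total 0 b with h0 | h0
    · refine ⟨-Complex.I, by simp [dirs], ?_⟩
      show ‖x - n‖ ≤ 2 * (-Complex.I * (x - n)).re
      have e1 : (-Complex.I * (x - n)).re = b := by
        rw [Complex.mul_re]; simp [hb]
      rw [e1]
      exact key b h0 (by linarith)
    · refine ⟨Complex.I, by simp [dirs], ?_⟩
      show ‖x - n‖ ≤ 2 * (Complex.I * (x - n)).re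
      have e1 : (Complex.I * (x - n)).re = -b := by
        rw [Complex.mul_re]; simp [hb]
      rw [e1]
      exact key (-b) (by linarith) (by nlinarith)

lemma norm_dirs {u : ℂ} (hu : u ∈ dirs) : ‖u‖ = 1 := by
  simp only [dirs, Finset.mem_insert, Finset.mem_singleton] at hu
  rcases hu with rfl | rfl | rfl | rfl <;> simp

lemma card_dirs : dirs.card ≤ 4 := by
  unfold dirs
  exact (Finset.card_le_four)

lemma QD.injOn (h : QD G G' A n K) {u : ℂ} (hu : u ∈ dirs) : InjOn G (K ∩ sec n u) := by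
  intro x hx y hy hxy
  by_contra hne
  set M := max ‖x - n‖ ‖y - n‖ with hM
  have h1 := h.mv hx.1 hy.1 (M := M) (le_max_left _ _) (le_max_right _ _)
  have hu1 := norm_dirs hu
  have h2 : (‖x - n‖ + ‖y - n‖) / 2 ≤ ‖(x - n) + (y - n)‖ := by
    have a1 : ‖x - n‖ ≤ 2 * (u * (x - n)).re := hx.2
    have a2 : ‖y - n‖ ≤ 2 * (u * (y - n)).re := hy.2
    have a3 : (u * (x - n)).re + (u * (y - n)).re ≤ ‖(x - n) + (y - n)‖ := by
      have : (u * ((x - n) + (y - n))).re ≤ ‖u * ((x - n) + (y - n))‖ := Complex.re_le_norm _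
      rw [norm_mul, hu1, one_mul, mul_add, Complex.add_re] at this
      exact this
    linarith
  have e1 : (G x - A / 2 * (x - n) ^ 2) - (G y - A / 2 * (y - n) ^ 2) =
      -(A / 2 * ((x - y) * ((x - n) + (y - n)))) := by
    rw [hxy]; ring
  rw [e1, norm_neg, norm_mul, norm_mul, norm_div] at h1
  have h3 : M ≤ ‖x - n‖ + ‖y - n‖ :=
    max_le (by linarith [norm_nonneg (y - n)]) (by linarith [norm_nonneg (x - n)])
  have hd : 0 < ‖x - y‖ := norm_pos_iff.2 (sub_ne_zero.2 hne)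
  have hA : 0 < ‖A‖ := norm_pos_iff.2 h.A0
  have hMpos : 0 < M := by
    by_contra hM0
    have b1 : ‖x - n‖ ≤ 0 := (le_max_left _ _).trans (not_lt.1 hM0)
    have b2 : ‖y - n‖ ≤ 0 := (le_max_right _ _).trans (not_lt.1 hM0)
    have c1 := sub_eq_zero.1 (norm_le_zero_iff.1 b1)
    have c2 := sub_eq_zero.1 (norm_le_zero_iff.1 b2)
    exact hne (c1.trans c2.symm)
  have h4 : M / 2 ≤ ‖(x - n) + (y - n)‖ := by linarith
  have h5 : ‖A‖ / 2 * (‖x - y‖ * (M / 2)) ≤ ‖A‖ / 2 * (‖x - y‖ * ‖(x - n) + (y - n)‖) := by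
    gcongr
  have h6 : ‖(2 : ℂ)‖ = 2 := by norm_num
  rw [h6] at h1
  have h7 : 0 < ‖A‖ * ‖x - y‖ * M := by positivity
  nlinarith

/-- every value is taken at most four times -/
lemma QD.encard_le (h : QD G G' A n K) (s : ℂ) : {x ∈ K | G x = s}.encard ≤ 4 := by
  have h1 : {x ∈ K | G x = s} ⊆ ⋃ u ∈ dirs, {x ∈ K ∩ sec n u | G x = s} := by
    intro x hx
    obtain ⟨u, hu, hxu⟩ := cover_sec n x
    simp only [mem_iUnion]
    exact ⟨u, hu, ⟨hx.1, hxu⟩, hx.2⟩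
  have h2 : ∀ u ∈ dirs, {x ∈ K ∩ sec n u | G x = s}.encard ≤ 1 := by
    intro u hu
    rw [encard_le_one_iff]
    intro a b ha hb
    exact h.injOn hu ha.1 hb.1 (ha.2.trans hb.2.symm)
  have h4 : (⋃ u ∈ dirs, {x ∈ K ∩ sec n u | G x = s}).encard ≤ ∑ u ∈ dirs, (1 : ℕ∞) := by
    have : ∀ S : Finset ℂ, S ⊆ dirs →
        (⋃ u ∈ S, {x ∈ K ∩ sec n u | G x = s}).encard ≤ ∑ u ∈ S, (1 : ℕ∞) := by
      intro S
      induction S using Finset.induction_on with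
      | empty => intro _; simp
      | insert a S ha ih =>
        intro hS
        rw [Finset.set_biUnion_insert, Finset.sum_insert ha]
        refine (encard_union_le _ _).trans (add_le_add (h2 a (hS (Finset.mem_insert_self _ _)))
          (ih ((Finset.subset_insert _ _).trans hS)))
    exact this dirs Finset.Subset.rfl
  refine (encard_le_encard h1).trans (h4.trans ?_)
  rw [Finset.sum_const, nsmul_eq_mul, mul_one]
  exact_mod_cast card_dirs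

lemma abs_det_holo (a : ℂ) :
    |((ContinuousLinearMap.toSpanSingleton ℂ a).restrictScalars ℝ).det| = ‖a‖ ^ 2 := by
  simp [ContinuousLinearMap.det, LinearMap.det_restrictScalars,
      Algebra.norm_complex_eq, Complex.normSq_eq_norm_sq]

/-- the kernel of the area estimate -/
noncomputable def ker (φ s : ℂ) : ℝ≥0∞ := (‖s‖ₑ * ‖s - φ‖ₑ)⁻¹

lemma QD.area_sec (h : QD G G' A n K) (hK : MeasurableSet K) {u : ℂ} (hu : u ∈ dirs) {M : ℝ}
    (hM : ∀ x ∈ K, ‖G x‖ ≤ M) :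
    ∫⁻ x in (K ∩ sec n u) \ {n}, (‖G x‖ₑ)⁻¹ ≤
      (‖A‖ₑ)⁻¹ * ∫⁻ s in closedBall (0 : ℂ) M, ker (G n) s := by
  have hms : MeasurableSet ((K ∩ sec n u) \ {n}) :=
    (hK.inter (isClosed_sec n u).measurableSet).diff (measurableSet_singleton n)
  have hinj : InjOn G ((K ∩ sec n u) \ {n}) := (h.injOn hu).mono sdiff_subset
  have hder : ∀ x ∈ (K ∩ sec n u) \ {n}, HasFDerivWithinAt G
      ((ContinuousLinearMap.toSpanSingleton ℂ (G' x)).restrictScalars ℝ)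
        ((K ∩ sec n u) \ {n}) x := fun x hx =>
    ((h.der x hx.1.1).hasFDerivAt.restrictScalars ℝ).hasFDerivWithinAt
  have h1 := lintegral_image_eq_lintegral_abs_det_fderiv_mul volume hms hder hinj (ker (G n))
  have h2 : ∫⁻ s in G '' ((K ∩ sec n u) \ {n}), ker (G n) s ≤
      ∫⁻ s in closedBall (0 : ℂ) M, ker (G n) s := by
    refine lintegral_mono_set ?_
    rintro s ⟨x, hx, rfl⟩
    simpa using hM x hx.1.1
  rw [h1] at h2
  refine le_trans ?_ (mul_le_mul_right h2 _)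
  have hAne : ‖A‖ₑ ≠ 0 := by simpa using h.A0
  have hAtop : ‖A‖ₑ ≠ ∞ := by simp
  rw [← lintegral_const_mul' _ _ (ENNReal.inv_ne_top.2 hAne)]
  refine setLIntegral_mono' hms fun x hx => ?_
  rw [abs_det_holo]
  have hxn : x ≠ n := hx.2
  have hlow := h.lower hx.1.1
  have hpos : 0 < ‖G x - G n‖ := by
    refine lt_of_lt_of_le ?_ hlow
    have : 0 < ‖x - n‖ := norm_pos_iff.2 (sub_ne_zero.2 hxn)
    have hA : 0 < ‖A‖ := norm_pos_iff.2 h.A0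
    positivity
  have hφ : ‖G x - G n‖ₑ ≠ 0 := by
    simpa using norm_pos_iff.1 hpos
  have hφ' : ‖G x - G n‖ₑ ≠ ∞ := by simp
  have e1 : ker (G n) (G x) = (‖G x - G n‖ₑ)⁻¹ * (‖G x‖ₑ)⁻¹ := by
    rw [ker, mul_comm, ENNReal.mul_inv (Or.inl hφ) (Or.inl hφ')]
  have hmain : ‖A‖ₑ * ‖G x - G n‖ₑ ≤ ENNReal.ofReal (‖G' x‖ ^ 2) := by
    rw [← ofReal_norm, ← ofReal_norm, ← ENNReal.ofReal_mul (norm_nonneg _)]
    exact ENNReal.ofReal_le_ofReal (h.main hx.1.1)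
  have e2 : (1 : ℝ≥0∞) ≤ (‖A‖ₑ)⁻¹ * (ENNReal.ofReal (‖G' x‖ ^ 2) * (‖G x - G n‖ₑ)⁻¹) := by
    calc (1 : ℝ≥0∞) = (‖A‖ₑ)⁻¹ * (‖A‖ₑ * (‖G x - G n‖ₑ * (‖G x - G n‖ₑ)⁻¹)) := by
          rw [ENNReal.mul_inv_cancel hφ hφ', mul_one, ENNReal.inv_mul_cancel hAne hAtop]
      _ = (‖A‖ₑ)⁻¹ * ((‖A‖ₑ * ‖G x - G n‖ₑ) * (‖G x - G n‖ₑ)⁻¹) := by ring
      _ ≤ _ := by gcongr
  calc (‖G x‖ₑ)⁻¹ = 1 * (‖G x‖ₑ)⁻¹ := (one_mul _).symm
    _ ≤ ((‖A‖ₑ)⁻¹ * (ENNReal.ofReal (‖G' x‖ ^ 2) * (‖G x - G n‖ₑ)⁻¹)) * (‖G x‖ₑ)⁻¹ := by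
        gcongr
    _ = _ := by rw [e1]; ring

lemma QD.area (h : QD G G' A n K) (hK : MeasurableSet K) {M : ℝ}
    (hM : ∀ x ∈ K, ‖G x‖ ≤ M) :
    ∫⁻ x in K, (‖G x‖ₑ)⁻¹ ≤
      4 * ((‖A‖ₑ)⁻¹ * ∫⁻ s in closedBall (0 : ℂ) M, ker (G n) s) := by
  have h0 : K ⊆ (⋃ u ∈ dirs, (K ∩ sec n u) \ {n}) ∪ {n} := by
    intro x hx
    by_cases hxn : x = n
    · exact Or.inr hxn
    · obtain ⟨u, hu, hxu⟩ := cover_sec n x
      left
      simp only [mem_iUnion]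
      exact ⟨u, hu, ⟨hx, hxu⟩, hxn⟩
  set B := (‖A‖ₑ)⁻¹ * ∫⁻ s in closedBall (0 : ℂ) M, ker (G n) s with hB
  have h1 : ∀ S : Finset ℂ, S ⊆ dirs →
      ∫⁻ x in ⋃ u ∈ S, (K ∩ sec n u) \ {n}, (‖G x‖ₑ)⁻¹ ≤ S.card * B := by
    intro S
    induction S using Finset.induction_on with
    | empty => intro _; simp
    | insert a S ha ih =>
      intro hS
      rw [Finset.set_biUnion_insert, Finset.card_insert_of_notMem ha]
      refine (lintegral_union_le _ _ _).trans ?_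
      have b1 := h.area_sec hK (hS (Finset.mem_insert_self _ _)) hM
      have b2 := ih ((Finset.subset_insert _ _).trans hS)
      calc _ ≤ B + S.card * B := add_le_add b1 b2
        _ = _ := by push_cast; ring
  calc ∫⁻ x in K, (‖G x‖ₑ)⁻¹
      ≤ ∫⁻ x in (⋃ u ∈ dirs, (K ∩ sec n u) \ {n}) ∪ {n}, (‖G x‖ₑ)⁻¹ := lintegral_mono_set h0
    _ ≤ (∫⁻ x in (⋃ u ∈ dirs, (K ∩ sec n u) \ {n}), (‖G x‖ₑ)⁻¹) +
        ∫⁻ x in {n}, (‖G x‖ₑ)⁻¹ := lintegral_union_le _ _ _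
    _ = ∫⁻ x in (⋃ u ∈ dirs, (K ∩ sec n u) \ {n}), (‖G x‖ₑ)⁻¹ := by
        rw [Measure.restrict_singleton]
        simp
    _ ≤ dirs.card * B := h1 dirs Finset.Subset.rfl
    _ ≤ 4 * B := by
        gcongr
        exact_mod_cast card_dirs

/-- `∫ 1/(|s| |s - φ|) ≤ C |φ|^(-ε)` -/
lemma exists_ker_bound {ε : ℝ} (h0 : 0 < ε) (h1 : ε ≤ 1) (M : ℝ) :
    ∃ C : ℝ≥0∞, C < ∞ ∧ ∀ φ : ℂ, φ ≠ 0 →
      ∫⁻ s in closedBall (0 : ℂ) M, ker φ s ≤ C * (‖φ‖ₑ) ^ (-ε) := by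
  obtain ⟨C, hC, hb⟩ := Vale.Agent.P271.H242.exists_bound_one (s := 2 - ε) (by linarith)
    (by linarith) M
  refine ⟨2 ^ ε * (C + C), ENNReal.mul_lt_top (ENNReal.rpow_lt_top_of_nonneg h0.le (by simp))
    (ENNReal.add_lt_top.2 ⟨hC, hC⟩), fun φ hφ => ?_⟩
  have hφ0 : ‖φ‖ₑ ≠ 0 := by simpa using hφ
  have hφt : ‖φ‖ₑ ≠ ∞ := by simp
  have key : ∀ s : ℂ, ker φ s ≤
      (2 ^ ε * ‖φ‖ₑ ^ (-ε)) * (‖s‖ₑ ^ (-(2 - ε)) + ‖s - φ‖ₑ ^ (-(2 - ε))) := by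
    intro s
    have gen : ∀ a b : ℝ≥0∞, a ≤ b → b ≠ ∞ → ‖φ‖ₑ ≤ a + b →
        (a * b)⁻¹ ≤ (2 ^ ε * ‖φ‖ₑ ^ (-ε)) * (a ^ (-(2 - ε)) + b ^ (-(2 - ε))) := by
      intro a b hab hbt hφab
      have hb2 : ‖φ‖ₑ ≤ 2 * b := hφab.trans (by rw [two_mul]; gcongr)
      have hb0 : b ≠ 0 := by
        rintro rfl
        simp at hb2
        exact hφ hb2
      have e1 : b ^ (-ε) ≤ 2 ^ ε * ‖φ‖ₑ ^ (-ε) := by
        have : ‖φ‖ₑ / 2 ≤ b := by
          rw [ENNReal.div_le_iff (by simp) (by simp)]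
          rwa [mul_comm]
        calc b ^ (-ε) ≤ (‖φ‖ₑ / 2) ^ (-ε) := by
              rw [ENNReal.rpow_neg, ENNReal.rpow_neg]
              exact ENNReal.inv_le_inv.2 (ENNReal.rpow_le_rpow this h0.le)
          _ = 2 ^ ε * ‖φ‖ₑ ^ (-ε) := by
              rw [div_eq_mul_inv, ENNReal.mul_rpow_of_ne_zero hφ0 (by simp)]
              rw [mul_comm]
              congr 1
              rw [← ENNReal.rpow_neg_one, ← ENNReal.rpow_mul]
              congr 1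
              ring
      have e2 : (a * b)⁻¹ ≤ b ^ (-ε) * a ^ (-(2 - ε)) := by
        rcases eq_or_ne a 0 with rfl | ha0
        · rw [ENNReal.zero_rpow_of_neg (by linarith), ENNReal.mul_top]
          · exact le_top
          · rw [Ne, ENNReal.rpow_eq_zero_iff]
            push Not
            exact ⟨fun h => absurd h hb0, fun h => absurd h hbt⟩
        · have hat : a ≠ ∞ := ne_top_of_le_ne_top hbt hab
          have e3 : (a * b)⁻¹ = a ^ (-1 : ℝ) * b ^ (-1 : ℝ) := by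
            rw [ENNReal.mul_inv (Or.inl ha0) (Or.inl hat), ENNReal.rpow_neg_one,
              ENNReal.rpow_neg_one]
          have e4 : b ^ (-1 : ℝ) = b ^ (-ε) * b ^ (-(1 - ε)) := by
            rw [← ENNReal.rpow_add _ _ hb0 hbt]
            congr 1; ring
          have e5 : a ^ (-(2 - ε)) = a ^ (-1 : ℝ) * a ^ (-(1 - ε)) := by
            rw [← ENNReal.rpow_add _ _ ha0 hat]
            congr 1; ring
          have e6 : b ^ (-(1 - ε)) ≤ a ^ (-(1 - ε)) := by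
            rw [ENNReal.rpow_neg, ENNReal.rpow_neg]
            exact ENNReal.inv_le_inv.2 (ENNReal.rpow_le_rpow hab (by linarith))
          rw [e3, e4, e5]
          calc a ^ (-1 : ℝ) * (b ^ (-ε) * b ^ (-(1 - ε)))
              ≤ a ^ (-1 : ℝ) * (b ^ (-ε) * a ^ (-(1 - ε))) := by gcongr
            _ = _ := by ring
      calc (a * b)⁻¹ ≤ b ^ (-ε) * a ^ (-(2 - ε)) := e2
        _ ≤ (2 ^ ε * ‖φ‖ₑ ^ (-ε)) * (a ^ (-(2 - ε)) + b ^ (-(2 - ε))) := by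
            gcongr
            exact le_self_add
    have htri : ‖φ‖ₑ ≤ ‖s‖ₑ + ‖s - φ‖ₑ := by
      have : φ = s - (s - φ) := by ring
      calc ‖φ‖ₑ = ‖s - (s - φ)‖ₑ := by rw [← this]
        _ ≤ _ := enorm_sub_le
    rcases le_total ‖s‖ₑ ‖s - φ‖ₑ with hle | hle
    · exact gen _ _ hle (by simp) htri
    · have := gen _ _ hle (by simp) (by rwa [add_comm])
      rw [ker, mul_comm, add_comm (‖s‖ₑ ^ (-(2 - ε)))]
      exact this
  calc ∫⁻ s in closedBall (0 : ℂ) M, ker φ s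
      ≤ ∫⁻ s in closedBall (0 : ℂ) M,
        (2 ^ ε * ‖φ‖ₑ ^ (-ε)) * (‖s‖ₑ ^ (-(2 - ε)) + ‖s - φ‖ₑ ^ (-(2 - ε))) :=
        lintegral_mono key
    _ = (2 ^ ε * ‖φ‖ₑ ^ (-ε)) * ∫⁻ s in closedBall (0 : ℂ) M,
        (‖s‖ₑ ^ (-(2 - ε)) + ‖s - φ‖ₑ ^ (-(2 - ε))) := by
        rw [lintegral_const_mul]
        exact (measurable_enorm.pow_const _).add
          ((measurable_enorm.comp (measurable_id.sub_const φ)).pow_const _)
    _ ≤ (2 ^ ε * ‖φ‖ₑ ^ (-ε)) * (C + C) := by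
        gcongr
        rw [lintegral_add_left (measurable_enorm.pow_const _)]
        refine add_le_add ?_ (hb φ)
        simpa using hb 0
    _ = _ := by ring

/-- the one-variable integral -/
theorem exists_int_bound {ε : ℝ} (h0 : 0 < ε) (h1 : ε ≤ 1) (M : ℝ) (A : ℂ) (hA : A ≠ 0) :
    ∃ C : ℝ≥0∞, C < ∞ ∧ ∀ (G G' : ℂ → ℂ) (n : ℂ) (K : Set ℂ), MeasurableSet K → QD G G' A n K →
      (∀ x ∈ K, ‖G x‖ ≤ M) → G n ≠ 0 → ∫⁻ x in K, (‖G x‖ₑ)⁻¹ ≤ C * (‖G n‖ₑ) ^ (-ε) := by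
  obtain ⟨C, hC, hb⟩ := exists_ker_bound h0 h1 M
  refine ⟨4 * ((‖A‖ₑ)⁻¹ * C), ?_, fun G G' n K hK h hM hne => ?_⟩
  · refine ENNReal.mul_lt_top (by simp) (ENNReal.mul_lt_top ?_ hC)
    exact ENNReal.inv_lt_top.2 (by simpa [pos_iff_ne_zero] using hA)
  · refine (h.area hK hM).trans ?_
    calc 4 * ((‖A‖ₑ)⁻¹ * ∫⁻ s in closedBall (0 : ℂ) M, ker (G n) s)
        ≤ 4 * ((‖A‖ₑ)⁻¹ * (C * (‖G n‖ₑ) ^ (-ε))) := by
          gcongr
          exact hb _ hne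
      _ = _ := by ring

end Vale.Agent.P298.H365.LcAn
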