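import Vale.Agent.P298.H365.LcAn1
import Vale.Agent.P298.H652.Node1
import Vale.Agent.P298.H379.Geo

/-!
# P298, row LC-AN: nearly constant second derivative with parameters
-/

open MeasureTheory Metric Set Filter Topology
open scoped ENNReal

namespace Vale.Agent.P298.H365.LcAn

section param

variable {P : Type*} [NormedAddCommGroup P] [NormedSpace ℂ P] [CompleteSpace P]

/-- the derivative in the last variable -/
noncomputable def dl (F : P × ℂ → ℂ) (q : P × ℂ) : ℂ := fderiv ℂ F q (0, 1)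

omit [CompleteSpace P] in
lemma hasDerivAt_dl {F : P × ℂ → ℂ} {p : P} {w : ℂ} (h : DifferentiableAt ℂ F (p, w)) :
    HasDerivAt (fun w => F (p, w)) (dl F (p, w)) w := by
  have h1 : HasDerivAt (fun w : ℂ => ((p, w) : P × ℂ)) (0, 1) w :=
    (hasDerivAt_const w p).prodMk (hasDerivAt_id w)
  exact h.hasFDerivAt.comp_hasDerivAt w h1

omit [CompleteSpace P] in
lemma analyticAt_dl {F : P × ℂ → ℂ} {q : P × ℂ} (h : AnalyticAt ℂ F q) :
    AnalyticAt ℂ (dl F) q := by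
  have h1 : AnalyticAt ℂ (fderiv ℂ F) q := h.fderiv
  exact (ContinuousLinearMap.apply ℂ ℂ ((0, 1) : P × ℂ)).analyticAt _ |>.comp h1

/-- the critical point as a function of the parameter, uniform quadratic behaviour -/
theorem qd_param {F : P × ℂ → ℂ} (hF : AnalyticAt ℂ F 0) (h1 : dl F 0 = 0)
    (hA : dl (dl F) 0 ≠ 0) :
    ∃ m : P → ℂ, AnalyticAt ℂ m 0 ∧ m 0 = 0 ∧ (∀ᶠ p in 𝓝 0, dl F (p, m p) = 0) ∧
      ∃ r₀ > 0, ∀ r, 0 < r → r ≤ r₀ → ∃ δ > 0, ∀ p ∈ ball (0 : P) δ,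
        QD (fun w => F (p, w)) (fun w => dl F (p, w)) (dl (dl F) 0) (m p) (ball 0 r) ∧
        ∀ w ∈ ball (0 : ℂ) r, ‖F (p, w)‖ ≤ ‖F 0‖ + 1 := by
  set A := dl (dl F) 0 with hAdef
  have hd : AnalyticAt ℂ (dl F) 0 := analyticAt_dl hF
  have hdd : AnalyticAt ℂ (dl (dl F)) 0 := analyticAt_dl hd
  -- implicit function
  have hΨ : AnalyticAt ℂ (fun q : ℂ × P => dl F (q.2, q.1)) (0, 0) := by
    have hs : AnalyticAt ℂ (fun q : ℂ × P => ((q.2, q.1) : P × ℂ)) (0, 0) :=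
      analyticAt_snd.prod analyticAt_fst
    exact AnalyticAt.fun_comp (g := dl F) (show AnalyticAt ℂ (dl F) ((0, 0) : P × ℂ) from hd) hs
  obtain ⟨m, hm, hm0, hmz, -⟩ := H652.exists_implicit_pt hΨ h1 (by
    refine ⟨ContinuousLinearEquiv.unitsEquivAut ℂ (Units.mk0 A hA), fun v => ?_⟩
    have hd' : DifferentiableAt ℂ (dl F) 0 := hd.differentiableAt
    have h2 : HasFDerivAt (fun q : ℂ × P => ((q.2, q.1) : P × ℂ))
        ((ContinuousLinearMap.snd ℂ ℂ P).prod (ContinuousLinearMap.fst ℂ ℂ P)) (0, 0) :=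
      hasFDerivAt_snd.prodMk hasFDerivAt_fst
    have h3 : HasFDerivAt (fun q : ℂ × P => dl F (q.2, q.1)) ((fderiv ℂ (dl F) 0).comp
        ((ContinuousLinearMap.snd ℂ ℂ P).prod (ContinuousLinearMap.fst ℂ ℂ P))) (0, 0) :=
      HasFDerivAt.comp (g := dl F) ((0, 0) : ℂ × P) hd'.hasFDerivAt h2
    rw [h3.fderiv]
    have e1 : ((0 : P), v) = v • ((0 : P), (1 : ℂ)) := by simp
    show fderiv ℂ (dl F) 0 (0, v) = v * A
    rw [e1, map_smul, smul_eq_mul]
    rfl)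
  refine ⟨m, hm, hm0, hmz, ?_⟩
  -- a neighbourhood on which everything is uniform
  have hAn : ∀ᶠ q in 𝓝 (0 : P × ℂ), AnalyticAt ℂ F q ∧ ‖dl (dl F) q - A‖ ≤ ‖A‖ / 8 ∧
      ‖F q‖ ≤ ‖F 0‖ + 1 := by
    have a1 := hF.eventually_analyticAt
    have hApos : 0 < ‖A‖ / 8 := by
      have : 0 < ‖A‖ := norm_pos_iff.2 hA
      positivity
    have a2 : ∀ᶠ q in 𝓝 (0 : P × ℂ), ‖dl (dl F) q - A‖ < ‖A‖ / 8 := by
      have := hdd.continuousAt.eventually (ball_mem_nhds _ hApos)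
      filter_upwards [this] with q hq
      simpa [dist_eq_norm] using hq
    have a3 : ∀ᶠ q in 𝓝 (0 : P × ℂ), ‖F q‖ < ‖F 0‖ + 1 :=
      (hF.continuousAt.norm).eventually_lt_const (by linarith)
    filter_upwards [a1, a2, a3] with q b1 b2 b3
    exact ⟨b1, b2.le, b3.le⟩
  obtain ⟨ρ, hρ, hball⟩ := Metric.eventually_nhds_iff_ball.1 hAn
  refine ⟨ρ, hρ, fun r hr hrρ => ?_⟩
  have hmr : ∀ᶠ p in 𝓝 (0 : P), m p ∈ ball (0 : ℂ) r := by
    have := hm.continuousAt.eventually (ball_mem_nhds (m 0) hr)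
    rwa [hm0] at this
  obtain ⟨δ, hδ, hδb⟩ := Metric.eventually_nhds_iff_ball.1 (hmr.and hmz)
  refine ⟨min δ ρ, lt_min hδ hρ, fun p hp => ?_⟩
  have hpδ : p ∈ ball (0 : P) δ := ball_subset_ball (min_le_left _ _) hp
  have hpρ : p ∈ ball (0 : P) ρ := ball_subset_ball (min_le_right _ _) hp
  have hq : ∀ w ∈ ball (0 : ℂ) r, ((p, w) : P × ℂ) ∈ ball (0 : P × ℂ) ρ := by
    intro w hw
    rw [mem_ball_zero_iff] at hw hpρ ⊢
    rw [Prod.norm_def]
    exact max_lt hpρ (hw.trans_le hrρ)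
  refine ⟨⟨convex_ball _ _, ?_, hA, (hδb p hpδ).1, ?_⟩, fun w hw => (hball _ (hq w hw)).2.2⟩
  · intro w hw
    exact hasDerivAt_dl (hball _ (hq w hw)).1.differentiableAt
  · intro w hw
    have h2 : ∀ z ∈ ball (0 : ℂ) r, HasDerivWithinAt (fun w => dl F (p, w) - A * w)
        (dl (dl F) (p, z) - A) (ball 0 r) z := by
      intro z hz
      have e1 := hasDerivAt_dl (F := dl F) (analyticAt_dl (hball _ (hq z hz)).1).differentiableAt
      have e2 : HasDerivAt (fun w : ℂ => A * w) A z := by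
        simpa using (hasDerivAt_id z).const_mul A
      exact (e1.sub e2).hasDerivWithinAt
    have h3 := (convex_ball (0 : ℂ) r).norm_image_sub_le_of_norm_hasDerivWithin_le h2
      (fun z hz => (hball _ (hq z hz)).2.1) (hδb p hpδ).1 hw
    have h4 : dl F (p, m p) = 0 := (hδb p hpδ).2
    have e1 : dl F (p, w) - A * w - (dl F (p, m p) - A * m p) = dl F (p, w) - A * (w - m p) := by
      rw [h4]; ring
    rw [e1] at h3
    exact h3

end param

end Vale.Agent.P298.H365.LcAn
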