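import Vale.Agent.P298.H365.LcAn2
import Vale.Agent.P298.H513.Mult

/-!
# P298, row LC-AN: integrability of the residue form on a surface with 2-jet of rank `≥ 2`
-/

open MeasureTheory Metric Set Filter Topology
open scoped ENNReal

namespace Vale.Agent.P298.H365.LcAn

open Vale.Agent.P298.H379

/-- the point as a linear equivalence -/
noncomputable def ptE : ((ℂ × ℂ) × ℂ) ≃L[ℂ] (Fin 3 → ℂ) :=
  LinearEquiv.toContinuousLinearEquiv
    { toFun := fun q => pt q.1 q.2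
      map_add' := fun a b => by ext i; fin_cases i <;> rfl
      map_smul' := fun c a => by ext i; fin_cases i <;> rfl
      invFun := fun x => ((x 0, x 1), x 2)
      left_inv := fun q => rfl
      right_inv := fun x => by ext i; fin_cases i <;> rfl }

lemma ptE_apply (q : (ℂ × ℂ) × ℂ) : ptE q = pt q.1 q.2 := rfl

/-- chain rule, without any hypothesis of differentiability -/
lemma fd_pt (u : (Fin 3 → ℂ) → ℂ) (q v : (ℂ × ℂ) × ℂ) :
    fderiv ℂ (fun q : (ℂ × ℂ) × ℂ => u (pt q.1 q.2)) q v =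
      fderiv ℂ u (pt q.1 q.2) (pt v.1 v.2) := by
  have h := ptE.comp_right_fderiv (f := u) (x := q)
  have e1 : (u ∘ ptE) = fun q : (ℂ × ℂ) × ℂ => u (pt q.1 q.2) := rfl
  rw [e1] at h
  rw [h]
  rfl

lemma pt_zero : pt (0 : ℂ × ℂ) 0 = 0 := by
  ext i; fin_cases i <;> rfl

lemma pt_e2 : pt (0 : ℂ × ℂ) 1 = Pi.single 2 1 := by
  ext i; fin_cases i <;> simp [pt]

lemma pt_e0 : pt ((1, 0) : ℂ × ℂ) 0 = Pi.single 0 1 := by
  ext i; fin_cases i <;> simp [pt]

lemma pt_e1 : pt ((0, 1) : ℂ × ℂ) 0 = Pi.single 1 1 := by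
  ext i; fin_cases i <;> simp [pt]

lemma norm_pt (p : ℂ × ℂ) (z : ℂ) : ‖pt p z‖ = max ‖p‖ ‖z‖ := by
  apply le_antisymm
  · refine (pi_norm_le_iff_of_nonneg (by positivity)).2 fun i => ?_
    fin_cases i
    · exact (norm_fst_le p).trans (le_max_left _ _)
    · exact (norm_snd_le p).trans (le_max_left _ _)
    · exact le_max_right _ _
  · refine max_le (norm_prod_le_iff.2 ⟨?_, ?_⟩) ?_
    · exact norm_le_pi_norm (pt p z) 0
    · exact norm_le_pi_norm (pt p z) 1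
    · exact norm_le_pi_norm (pt p z) 2

/-- at most four roots: the bound of the root sum -/
lemma rootSum_le {f : (Fin 3 → ℂ) → ℂ} {p : ℂ × ℂ} {r r' : ℝ} (hrr : r ≤ r') {A m : ℂ}
    (h : QD (fun w => f (pt p w)) (fun w => pd 2 f (pt p w)) A m (ball 0 r')) :
    rootSum f 0 ((ball (0 : Fin 3 → ℂ) r).indicator fun _ => (1 : ℝ≥0∞)) p ≤
      4 * (‖A‖ₑ * ‖f (pt p m)‖ₑ)⁻¹ := by
  set B := (‖A‖ₑ * ‖f (pt p m)‖ₑ)⁻¹ with hB
  set T : Set ℂ := {w ∈ ball (0 : ℂ) r' | f (pt p w) = 0} with hT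
  have hT4 : T.encard ≤ 4 := h.encard_le 0
  have h1 : ∀ z : ℂ, (Rts f 0 p).indicator (fun z =>
      (ball (0 : Fin 3 → ℂ) r).indicator (fun _ => (1 : ℝ≥0∞)) (pt p z) /
        ‖pd 2 f (pt p z)‖ₑ ^ 2) z ≤ T.indicator (fun _ => B) z := by
    intro z
    by_cases hz : z ∈ Rts f 0 p
    · rw [indicator_of_mem hz]
      by_cases hb : pt p z ∈ ball (0 : Fin 3 → ℂ) r
      · have hz' : z ∈ ball (0 : ℂ) r' := by
          rw [mem_ball_zero_iff] at hb ⊢
          rw [norm_pt] at hb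
          exact (le_max_right _ _).trans_lt (hb.trans_le hrr)
        have hzT : z ∈ T := ⟨hz', hz.1⟩
        rw [indicator_of_mem hb, indicator_of_mem hzT, hB, one_div]
        refine ENNReal.inv_le_inv.2 ?_
        have hm := h.main hz'
        simp only [hz.1, zero_sub, norm_neg] at hm
        have e1 : ‖A‖ₑ * ‖f (pt p m)‖ₑ = ENNReal.ofReal (‖A‖ * ‖f (pt p m)‖) := by
          rw [ENNReal.ofReal_mul (norm_nonneg _), ofReal_norm, ofReal_norm]
        have e2 : ‖pd 2 f (pt p z)‖ₑ ^ 2 = ENNReal.ofReal (‖pd 2 f (pt p z)‖ ^ 2) := by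
          rw [ENNReal.ofReal_pow (norm_nonneg _), ofReal_norm]
        rw [e1, e2]
        exact ENNReal.ofReal_le_ofReal hm
      · rw [indicator_of_notMem hb]
        simp
    · rw [indicator_of_notMem hz]
      exact zero_le
  calc rootSum f 0 ((ball (0 : Fin 3 → ℂ) r).indicator fun _ => (1 : ℝ≥0∞)) p
      = ∑' z : ℂ, (Rts f 0 p).indicator (fun z =>
      (ball (0 : Fin 3 → ℂ) r).indicator (fun _ => (1 : ℝ≥0∞)) (pt p z) /
        ‖pd 2 f (pt p z)‖ₑ ^ 2) z := tsum_subtype (Rts f 0 p) (fun z =>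
      (ball (0 : Fin 3 → ℂ) r).indicator (fun _ => (1 : ℝ≥0∞)) (pt p z) /
        ‖pd 2 f (pt p z)‖ₑ ^ 2)
    _ ≤ ∑' z : ℂ, T.indicator (fun _ => B) z := ENNReal.tsum_le_tsum h1
    _ = ∑' _ : T, B := (tsum_subtype T (fun _ => B)).symm
    _ = (T.encard : ℝ≥0∞) * B := by
        rw [ENNReal.tsum_set_const]
    _ ≤ 4 * B := by
        gcongr
        exact_mod_cast hT4

lemma rootSum_zero {f : (Fin 3 → ℂ) → ℂ} {p : ℂ × ℂ} {r : ℝ} (hp : p ∉ ball (0 : ℂ × ℂ) r) :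
    rootSum f 0 ((ball (0 : Fin 3 → ℂ) r).indicator fun _ => (1 : ℝ≥0∞)) p = 0 := by
  unfold rootSum
  refine ENNReal.tsum_eq_zero.2 fun z => ?_
  rw [indicator_of_notMem]
  · simp
  · rw [mem_ball_zero_iff] at hp ⊢
    rw [norm_pt]
    exact fun h => hp ((le_max_left _ _).trans_lt h)

end Vale.Agent.P298.H365.LcAn
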