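import Vale.Agent.P298.H365.LcAn3

/-!
# P298, row LC-AN: the two implicit functions and the integral
-/

open MeasureTheory Metric Set Filter Topology
open scoped ENNReal

namespace Vale.Agent.P298.H365.LcAn

open Vale.Agent.P298.H379

lemma dl_pt (u : (Fin 3 → ℂ) → ℂ) (q : (ℂ × ℂ) × ℂ) :
    dl (fun q : (ℂ × ℂ) × ℂ => u (pt q.1 q.2)) q = pd 2 u (pt q.1 q.2) := by
  rw [dl, fd_pt, pd]
  congr 1
  exact pt_e2

lemma pt_split (v : ℂ × ℂ) (c : ℂ) : pt v c = pt v 0 + c • (Pi.single 2 1 : Fin 3 → ℂ) := by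
  ext i; fin_cases i <;> simp [pt]

lemma analyticAt_pt {u : (Fin 3 → ℂ) → ℂ} (hu : AnalyticAt ℂ u 0) :
    AnalyticAt ℂ (fun q : (ℂ × ℂ) × ℂ => u (pt q.1 q.2)) 0 := by
  have h : AnalyticAt ℂ (fun q => u (ptE q)) 0 :=
    AnalyticAt.fun_comp (g := u) (by rw [map_zero]; exact hu) (ptE.toContinuousLinearMap.analyticAt 0)
  exact h

lemma hol_pd {f : (Fin 3 → ℂ) → ℂ} (hf : Hol f) (i : Fin 3) : Hol (pd i f) := by
  have h : AnalyticAt ℂ (fderiv ℂ f) 0 := AnalyticAt.fderiv hf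
  exact (ContinuousLinearMap.apply ℂ ℂ (Pi.single i 1 : Fin 3 → ℂ)).analyticAt _ |>.comp h

/-- the derivative of `p ↦ u (p, m p)` -/
lemma fderiv_graph {u : (Fin 3 → ℂ) → ℂ} {m : ℂ × ℂ → ℂ} {p : ℂ × ℂ}
    (hu : DifferentiableAt ℂ (fun q : (ℂ × ℂ) × ℂ => u (pt q.1 q.2)) (p, m p))
    (hm : DifferentiableAt ℂ m p) (v : ℂ × ℂ) :
    fderiv ℂ (fun p => u (pt p (m p))) p v =
      fderiv ℂ u (pt p (m p)) (pt v 0) + fderiv ℂ m p v * pd 2 u (pt p (m p)) := by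
  have h1 : HasFDerivAt (fun p => ((p, m p) : (ℂ × ℂ) × ℂ))
      ((ContinuousLinearMap.id ℂ (ℂ × ℂ)).prod (fderiv ℂ m p)) p :=
    (hasFDerivAt_id p).prodMk hm.hasFDerivAt
  have h2 := HasFDerivAt.comp (g := fun q : (ℂ × ℂ) × ℂ => u (pt q.1 q.2)) p hu.hasFDerivAt h1
  have h3 : fderiv ℂ (fun p => u (pt p (m p))) p =
      (fderiv ℂ (fun q : (ℂ × ℂ) × ℂ => u (pt q.1 q.2)) (p, m p)).comp
        ((ContinuousLinearMap.id ℂ (ℂ × ℂ)).prod (fderiv ℂ m p)) := h2.fderiv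
  rw [h3, ContinuousLinearMap.comp_apply, fd_pt]
  show fderiv ℂ u (pt p (m p)) (pt v (fderiv ℂ m p v)) = _
  rw [pt_split v, map_add, map_smul, smul_eq_mul]
  rfl

/-- data of the two steps -/
structure Two (f : (Fin 3 → ℂ) → ℂ) (m : ℂ × ℂ → ℂ) (n : ℂ → ℂ) (A a : ℂ) (r N : ℝ)
    (M : ℝ) : Prop where
  r0 : 0 < r
  cont : ContinuousOn (fun p : ℂ × ℂ => f (pt p (m p))) (ball 0 r)
  mdiff : DifferentiableOn ℂ m (ball 0 r)
  one : ∀ p ∈ ball (0 : ℂ × ℂ) r, ∃ r' ≥ r,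
    QD (fun w => f (pt p w)) (fun w => pd 2 f (pt p w)) A (m p) (ball 0 r')
  two : ∀ z ∈ ball (0 : ℂ) r, ∃ r' ≥ r, ∃ G' : ℂ → ℂ,
    QD (fun x => f (pt (x, z) (m (x, z)))) G' a (n z) (ball 0 r') ∧
      ∀ x ∈ ball (0 : ℂ) r', ‖f (pt (x, z) (m (x, z)))‖ ≤ M
  N0 : 0 ≤ N
  low : ∃ c > 0, ∀ z ∈ ball (0 : ℂ) r, c * ‖z‖ ^ N ≤ ‖f (pt (n z, z) (m (n z, z)))‖

/-- the integral of the bound is finite -/
lemma Two.int_finite {f : (Fin 3 → ℂ) → ℂ} {m : ℂ × ℂ → ℂ} {n : ℂ → ℂ} {A a : ℂ} {r N M : ℝ}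
    (h : Two f m n A a r N M) (ha : a ≠ 0) :
    ∫⁻ p in ball (0 : ℂ × ℂ) r, (‖f (pt p (m p))‖ₑ)⁻¹ < ∞ := by
  set g : ℂ × ℂ → ℂ := fun p => f (pt p (m p)) with hg
  have hN := h.N0
  set ε : ℝ := 1 / (N + 1) with hε
  have hε0 : 0 < ε := by positivity
  have hε1 : ε ≤ 1 := by
    rw [hε, div_le_one (by linarith)]; linarith
  obtain ⟨C, hC, hCb⟩ := exists_int_bound hε0 hε1 M a ha
  obtain ⟨D, hD, hDb⟩ := Vale.Agent.P271.H242.exists_bound_one (s := N * ε) (by positivity)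
    (by
      have : N * ε < 1 := by
        rw [hε, mul_one_div, div_lt_one (by linarith)]; linarith
      linarith) r
  obtain ⟨c, hc, hlow⟩ := h.low
  have step3 : ∫⁻ p in ball (0 : ℂ × ℂ) r, (‖g p‖ₑ)⁻¹ =
      ∫⁻ z in ball (0 : ℂ) r, ∫⁻ x in ball (0 : ℂ) r, (‖g (x, z)‖ₑ)⁻¹ := by
    have e1 : ball (0 : ℂ × ℂ) r = ball (0 : ℂ) r ×ˢ ball (0 : ℂ) r := by
      rw [ball_prod_same]; rfl
    have hm : AEMeasurable (fun p => (‖g p‖ₑ)⁻¹)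
        (volume.restrict (ball (0 : ℂ × ℂ) r)) := by
      have h1 : AEMeasurable g (volume.restrict (ball (0 : ℂ × ℂ) r)) :=
        h.cont.aemeasurable measurableSet_ball
      exact h1.enorm.inv
    rw [e1] at hm ⊢
    rw [Measure.volume_eq_prod, ← Measure.prod_restrict] at hm ⊢
    exact lintegral_prod_symm _ hm
  have step4 : ∀ᵐ z : ℂ, z ∈ ball (0 : ℂ) r →
      ∫⁻ x in ball (0 : ℂ) r, (‖g (x, z)‖ₑ)⁻¹ ≤
        C * ((ENNReal.ofReal c) ^ (-ε) * ‖z - 0‖ₑ ^ (-(N * ε))) := by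
    filter_upwards [Measure.ae_ne volume (0 : ℂ)] with z hz hzr
    obtain ⟨r', hr', G', hQ, hM⟩ := h.two z hzr
    have hzn : 0 < ‖z‖ := norm_pos_iff.2 hz
    have hφpos : 0 < c * ‖z‖ ^ N := mul_pos hc (Real.rpow_pos_of_pos hzn _)
    have hφ := hlow z hzr
    have hne : f (pt (n z, z) (m (n z, z))) ≠ 0 := norm_pos_iff.1 (hφpos.trans_le hφ)
    have b1 := hCb _ G' (n z) (ball 0 r') measurableSet_ball hQ hM hne
    refine (lintegral_mono_set (ball_subset_ball hr')).trans (b1.trans ?_)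
    gcongr
    have b2 : ENNReal.ofReal (c * ‖z‖ ^ N) ≤ ‖f (pt (n z, z) (m (n z, z)))‖ₑ := by
      rw [← ofReal_norm]
      exact ENNReal.ofReal_le_ofReal hφ
    calc ‖f (pt (n z, z) (m (n z, z)))‖ₑ ^ (-ε) ≤ (ENNReal.ofReal (c * ‖z‖ ^ N)) ^ (-ε) := by
          rw [ENNReal.rpow_neg, ENNReal.rpow_neg]
          exact ENNReal.inv_le_inv.2 (ENNReal.rpow_le_rpow b2 hε0.le)
      _ = (ENNReal.ofReal c) ^ (-ε) * ‖z - 0‖ₑ ^ (-(N * ε)) := by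
          rw [ENNReal.ofReal_mul hc.le, ENNReal.mul_rpow_of_ne_top (by simp) (by simp)]
          congr 1
          rw [← ENNReal.ofReal_rpow_of_pos hzn, ← ENNReal.rpow_mul, sub_zero, ofReal_norm]
          congr 1
          ring
  have step5 : ∫⁻ z in ball (0 : ℂ) r, ∫⁻ x in ball (0 : ℂ) r, (‖g (x, z)‖ₑ)⁻¹ ≤
      C * ((ENNReal.ofReal c) ^ (-ε) * D) := by
    calc ∫⁻ z in ball (0 : ℂ) r, ∫⁻ x in ball (0 : ℂ) r, (‖g (x, z)‖ₑ)⁻¹
        ≤ ∫⁻ z in ball (0 : ℂ) r, C * ((ENNReal.ofReal c) ^ (-ε) * ‖z - 0‖ₑ ^ (-(N * ε))) := by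
          refine lintegral_mono_ae ?_
          rw [ae_restrict_iff' measurableSet_ball]
          exact step4
      _ = C * ((ENNReal.ofReal c) ^ (-ε) *
            ∫⁻ z in ball (0 : ℂ) r, ‖z - 0‖ₑ ^ (-(N * ε))) := by
          rw [lintegral_const_mul' _ _ hC.ne, lintegral_const_mul']
          exact ENNReal.rpow_ne_top_of_ne_zero (by simpa using hc) (by simp)
      _ ≤ C * ((ENNReal.ofReal c) ^ (-ε) * D) := by
          gcongr
          exact (lintegral_mono_set ball_subset_closedBall).trans (hDb 0)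
  rw [step3]
  refine step5.trans_lt (ENNReal.mul_lt_top hC (ENNReal.mul_lt_top ?_ hD))
  exact (ENNReal.rpow_ne_top_of_ne_zero (by simpa using hc) (by simp)).lt_top

/-- the integral is finite -/
lemma Two.finite {f : (Fin 3 → ℂ) → ℂ} {m : ℂ × ℂ → ℂ} {n : ℂ → ℂ} {A a : ℂ} {r N M : ℝ}
    (h : Two f m n A a r N M) (hA : A ≠ 0) (ha : a ≠ 0) :
    nu f 0 ((ball (0 : Fin 3 → ℂ) r).indicator fun _ => (1 : ℝ≥0∞)) < ∞ := by
  set g : ℂ × ℂ → ℂ := fun p => f (pt p (m p)) with hg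
  have hAe : ‖A‖ₑ ≠ 0 := by simpa using hA
  have step1 : ∀ p : ℂ × ℂ,
      rootSum f 0 ((ball (0 : Fin 3 → ℂ) r).indicator fun _ => (1 : ℝ≥0∞)) p ≤
        (ball (0 : ℂ × ℂ) r).indicator (fun p => 4 * (‖A‖ₑ)⁻¹ * (‖g p‖ₑ)⁻¹) p := by
    intro p
    by_cases hp : p ∈ ball (0 : ℂ × ℂ) r
    · rw [indicator_of_mem hp]
      obtain ⟨r', hr', hQ⟩ := h.one p hp
      refine (rootSum_le hr' hQ).trans (le_of_eq ?_)
      rw [ENNReal.mul_inv (Or.inl hAe) (Or.inl (by simp)), mul_assoc]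
    · rw [rootSum_zero hp]
      exact zero_le
  have step2 : nu f 0 ((ball (0 : Fin 3 → ℂ) r).indicator fun _ => (1 : ℝ≥0∞)) ≤
      4 * (‖A‖ₑ)⁻¹ * ∫⁻ p in ball (0 : ℂ × ℂ) r, (‖g p‖ₑ)⁻¹ := by
    unfold nu
    refine (lintegral_mono step1).trans (le_of_eq ?_)
    rw [lintegral_indicator measurableSet_ball, lintegral_const_mul' _ _]
    exact ENNReal.mul_ne_top (by simp) (ENNReal.inv_ne_top.2 hAe)
  refine step2.trans_lt (ENNReal.mul_lt_top (ENNReal.mul_lt_top (by simp) ?_)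
    (h.int_finite ha))
  exact ENNReal.inv_lt_top.2 (pos_iff_ne_zero.2 hAe)

end Vale.Agent.P298.H365.LcAn
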