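import Vale.Agent.P298.H365.LcAn4

/-!
# P298, row LC-AN: existence of the two implicit functions, theorem in adapted coordinates
-/

open MeasureTheory Metric Set Filter Topology
open scoped ENNReal

namespace Vale.Agent.P298.H365.LcAn

open Vale.Agent.P298.H379

lemma QD.congr {G G' G'' : ℂ → ℂ} {A n : ℂ} {K : Set ℂ} (h : QD G G' A n K)
    (he : ∀ x, G' x = G'' x) : QD G G'' A n K := by
  have : G' = G'' := funext he
  rwa [← this]

/-- the swap of the two variables -/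
noncomputable def swE : (ℂ × ℂ) ≃L[ℂ] (ℂ × ℂ) := ContinuousLinearEquiv.prodComm ℂ ℂ ℂ

lemma fd_swap (g : ℂ × ℂ → ℂ) (q v : ℂ × ℂ) :
    fderiv ℂ (fun q : ℂ × ℂ => g (q.2, q.1)) q v = fderiv ℂ g (q.2, q.1) (v.2, v.1) := by
  have h := swE.comp_right_fderiv (f := g) (x := q)
  have e1 : (g ∘ swE) = fun q : ℂ × ℂ => g (q.2, q.1) := rfl
  rw [e1] at h
  rw [h]
  rfl

/-- **LC-AN in adapted coordinates.** -/
theorem exists_two {f : (Fin 3 → ℂ) → ℂ} (hf : Hol f) (h0 : ∀ i, pd i f 0 = 0)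
    (hA : pd 2 (pd 2 f) 0 ≠ 0)
    (hB : pd 0 (pd 0 f) 0 * pd 2 (pd 2 f) 0 - pd 0 (pd 2 f) 0 * pd 2 (pd 0 f) 0 ≠ 0)
    (hiso : ∀ᶠ x in 𝓝[≠] (0 : Fin 3 → ℂ), ∃ i, pd i f x ≠ 0) :
    ∃ m n A a r N M, Two f m n A a r N M ∧ A ≠ 0 ∧ a ≠ 0 := by
  -- first step
  set F : (ℂ × ℂ) × ℂ → ℂ := fun q => f (pt q.1 q.2) with hF
  have hFan : AnalyticAt ℂ F 0 := analyticAt_pt hf
  have hdlF : dl F = fun q => pd 2 f (pt q.1 q.2) := funext fun q => dl_pt f q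
  have hF1 : dl F 0 = 0 := by
    rw [hdlF]
    show pd 2 f (pt 0 0) = 0
    rw [pt_zero]; exact h0 2
  have hddl : dl (dl F) 0 = pd 2 (pd 2 f) 0 := by
    rw [hdlF, dl_pt (pd 2 f)]
    show pd 2 (pd 2 f) (pt 0 0) = _
    rw [pt_zero]
  obtain ⟨m, hm, hm0, hmz, r₁, hr₁, hQ₁⟩ := qd_param hFan hF1 (by rw [hddl]; exact hA)
  rw [hddl] at hQ₁
  -- the function of two variables
  set g : ℂ × ℂ → ℂ := fun p => f (pt p (m p)) with hg
  have hgr : AnalyticAt ℂ (fun p : ℂ × ℂ => ((p, m p) : (ℂ × ℂ) × ℂ)) 0 :=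
    analyticAt_id.prod hm
  have hcomp : ∀ u : (Fin 3 → ℂ) → ℂ, Hol u → AnalyticAt ℂ (fun p => u (pt p (m p))) 0 := by
    intro u hu
    have := AnalyticAt.fun_comp (g := fun q : (ℂ × ℂ) × ℂ => u (pt q.1 q.2))
      (f := fun p : ℂ × ℂ => ((p, m p) : (ℂ × ℂ) × ℂ)) (x := 0)
      (by rw [hm0]; exact analyticAt_pt hu) hgr
    exact this
  have hgan : AnalyticAt ℂ g 0 := hcomp f hf
  have hcontgr : ContinuousAt (fun p : ℂ × ℂ => ((p, m p) : (ℂ × ℂ) × ℂ)) 0 := hgr.continuousAt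
  have hev : ∀ᶠ p in 𝓝 (0 : ℂ × ℂ), AnalyticAt ℂ F (p, m p) := by
    have h1 : ∀ᶠ q in 𝓝 (((0 : ℂ × ℂ), m 0) : (ℂ × ℂ) × ℂ), AnalyticAt ℂ F q := by
      rw [hm0]; exact hFan.eventually_analyticAt
    exact hcontgr.eventually h1
  have hdg : ∀ᶠ p in 𝓝 (0 : ℂ × ℂ), ∀ v, fderiv ℂ g p v = fderiv ℂ f (pt p (m p)) (pt v 0) := by
    filter_upwards [hev, hm.eventually_analyticAt, hmz] with p h1 h2 h3 v
    rw [hg, fderiv_graph h1.differentiableAt h2.differentiableAt v]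
    have h4 : pd 2 f (pt p (m p)) = 0 := by
      rw [hdlF] at h3
      exact h3
    rw [h4, mul_zero, add_zero]
  have hdg0 : ∀ᶠ p in 𝓝 (0 : ℂ × ℂ), fderiv ℂ g p (1, 0) = pd 0 f (pt p (m p)) := by
    filter_upwards [hdg] with p hp
    rw [hp, pd, pt_e0]
  have hdg1 : ∀ᶠ p in 𝓝 (0 : ℂ × ℂ), fderiv ℂ g p (0, 1) = pd 1 f (pt p (m p)) := by
    filter_upwards [hdg] with p hp
    rw [hp, pd, pt_e1]
  -- second step
  set F2 : ℂ × ℂ → ℂ := fun q => g (q.2, q.1) with hF2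
  have hsw : ContinuousAt (fun q : ℂ × ℂ => ((q.2, q.1) : ℂ × ℂ)) 0 := by fun_prop
  have hF2an : AnalyticAt ℂ F2 0 := by
    have := AnalyticAt.fun_comp (g := g) (f := fun q : ℂ × ℂ => ((q.2, q.1) : ℂ × ℂ)) (x := 0)
      hgan (analyticAt_snd.prod analyticAt_fst)
    exact this
  have hdlF2 : ∀ q, dl F2 q = fderiv ℂ g (q.2, q.1) (1, 0) := fun q => fd_swap g q (0, 1)
  have hdlF2' : dl F2 =ᶠ[𝓝 0] fun q => pd 0 f (pt (q.2, q.1) (m (q.2, q.1))) := by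
    have := hsw.eventually hdg0
    filter_upwards [this] with q hq
    rw [hdlF2, hq]
  have hpt0 : pt (0 : ℂ × ℂ) (m 0) = 0 := by rw [hm0, pt_zero]
  have hF21 : dl F2 0 = 0 := by
    rw [hdlF2'.self_of_nhds]
    show pd 0 f (pt (0 : ℂ × ℂ) (m 0)) = 0
    rw [hpt0]; exact h0 0
  set c := fderiv ℂ m 0 (1, 0) with hc
  have hgraph0 : ∀ u : (Fin 3 → ℂ) → ℂ, Hol u →
      fderiv ℂ (fun p => u (pt p (m p))) 0 (1, 0) = pd 0 u 0 + c * pd 2 u 0 := by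
    intro u hu
    have h1 : DifferentiableAt ℂ (fun q : (ℂ × ℂ) × ℂ => u (pt q.1 q.2)) (0, m 0) := by
      rw [hm0]; exact (analyticAt_pt hu).differentiableAt
    rw [fderiv_graph h1 hm.differentiableAt, hpt0, pt_e0]
    rfl
  have hcrit : pd 0 (pd 2 f) 0 + c * pd 2 (pd 2 f) 0 = 0 := by
    rw [← hgraph0 (pd 2 f) (hol_pd hf 2)]
    have : (fun p => pd 2 f (pt p (m p))) =ᶠ[𝓝 0] fun _ => (0 : ℂ) := by
      filter_upwards [hmz] with p hp
      rw [hdlF] at hp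
      exact hp
    rw [this.fderiv_eq]
    simp
  have ha2 : dl (dl F2) 0 = pd 0 (pd 0 f) 0 + c * pd 2 (pd 0 f) 0 := by
    rw [← hgraph0 (pd 0 f) (hol_pd hf 0)]
    have e1 : dl (dl F2) 0 = dl (fun q : ℂ × ℂ => pd 0 f (pt (q.2, q.1) (m (q.2, q.1)))) 0 := by
      show fderiv ℂ (dl F2) 0 (0, 1) =
        fderiv ℂ (fun q : ℂ × ℂ => pd 0 f (pt (q.2, q.1) (m (q.2, q.1)))) 0 (0, 1)
      rw [Filter.EventuallyEq.fderiv_eq hdlF2']
    rw [e1]
    exact fd_swap (fun p => pd 0 f (pt p (m p))) 0 (0, 1)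
  have ha2ne : dl (dl F2) 0 ≠ 0 := by
    intro h
    rw [ha2] at h
    apply hB
    linear_combination (pd 2 (pd 2 f) 0) * h - (pd 2 (pd 0 f) 0) * hcrit
  obtain ⟨n, hn, hn0, hnz, r₂, hr₂, hQ₂⟩ := qd_param hF2an hF21 ha2ne
  -- the critical value
  set φ : ℂ → ℂ := fun z => F2 (z, n z) with hφ
  have hgr2 : AnalyticAt ℂ (fun z : ℂ => ((z, n z) : ℂ × ℂ)) 0 := analyticAt_id.prod hn
  have hgr2c : ContinuousAt (fun z : ℂ => ((z, n z) : ℂ × ℂ)) 0 := hgr2.continuousAt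
  have hφan : AnalyticAt ℂ φ 0 := by
    have := AnalyticAt.fun_comp (g := F2) (f := fun z : ℂ => ((z, n z) : ℂ × ℂ)) (x := 0)
      (by rw [hn0]; exact hF2an) hgr2
    exact this
  have hφne : ¬ ∀ᶠ z in 𝓝 (0 : ℂ), φ z = 0 := by
    intro hz
    have e1 : ∀ᶠ z in 𝓝 (0 : ℂ), AnalyticAt ℂ F2 (z, n z) := by
      have h1 : ∀ᶠ q in 𝓝 (((0 : ℂ), n 0) : ℂ × ℂ), AnalyticAt ℂ F2 q := by
        rw [hn0]; exact hF2an.eventually_analyticAt
      exact hgr2c.eventually h1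
    have hsw2 : Tendsto (fun z : ℂ => ((n z, z) : ℂ × ℂ)) (𝓝 0) (𝓝 0) := by
      have : ContinuousAt (fun z : ℂ => ((n z, z) : ℂ × ℂ)) 0 :=
        hn.continuousAt.prodMk continuousAt_id
      have h2 := this.tendsto
      simp only [hn0] at h2
      exact h2
    have e2 : ∀ᶠ z in 𝓝 (0 : ℂ), pd 1 f (pt (n z, z) (m (n z, z))) = 0 := by
      filter_upwards [hz.eventually_nhds, e1, hn.eventually_analyticAt, hnz,
        hsw2.eventually hdg1] with z h1 h2 h3 h4 h5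
      have d1 : HasFDerivAt F2 (fderiv ℂ F2 (z, n z)) (z, n z) :=
        h2.differentiableAt.hasFDerivAt
      have d2 : HasDerivAt (fun z : ℂ => ((z, n z) : ℂ × ℂ)) (1, deriv n z) z :=
        (hasDerivAt_id z).prodMk h3.differentiableAt.hasDerivAt
      have d3 : HasDerivAt φ (fderiv ℂ F2 (z, n z) (1, deriv n z)) z :=
        HasFDerivAt.comp_hasDerivAt (l := F2) z d1 d2
      have d4 : deriv φ z = 0 := by
        have : φ =ᶠ[𝓝 z] fun _ => (0 : ℂ) := h1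
        rw [this.deriv_eq, deriv_const]
      rw [d3.deriv] at d4
      have d5 : ((1 : ℂ), deriv n z) = (1, 0) + deriv n z • ((0 : ℂ), (1 : ℂ)) := by simp
      have h4' : fderiv ℂ F2 (z, n z) (0, 1) = 0 := h4
      rw [d5, map_add, map_smul, h4', smul_zero, add_zero] at d4
      have d6 := fd_swap g (z, n z) (1, 0)
      have d7 : fderiv ℂ F2 (z, n z) (1, 0) = fderiv ℂ g (n z, z) (0, 1) := d6
      rw [d7, h5] at d4
      exact d4
    have e3 : ∀ᶠ z in 𝓝 (0 : ℂ), pd 2 f (pt (n z, z) (m (n z, z))) = 0 := by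
      filter_upwards [hsw2.eventually hmz] with z h1
      rw [hdlF] at h1
      exact h1
    have e4 : ∀ᶠ z in 𝓝 (0 : ℂ), pd 0 f (pt (n z, z) (m (n z, z))) = 0 := by
      filter_upwards [hnz, hsw2.eventually hdg0] with z h1 h2
      rw [hdlF2] at h1
      rw [← h2]
      exact h1
    set x : ℂ → (Fin 3 → ℂ) := fun z => pt (n z, z) (m (n z, z)) with hx
    have hxc : ContinuousAt x 0 := by
      have h1 : ContinuousAt (fun p : ℂ × ℂ => pt p (m p)) ((n 0, 0) : ℂ × ℂ) := by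
        rw [hn0]
        have : ContinuousAt (fun p : ℂ × ℂ => ptE (p, m p)) 0 :=
          ptE.continuous.continuousAt.comp hcontgr
        exact this
      have h2 : ContinuousAt (fun z : ℂ => ((n z, z) : ℂ × ℂ)) 0 :=
        hn.continuousAt.prodMk continuousAt_id
      exact ContinuousAt.comp (g := fun p : ℂ × ℂ => pt p (m p)) h1 h2
    have hx0 : x 0 = 0 := by
      rw [hx]
      show pt (n 0, 0) (m (n 0, 0)) = 0
      rw [hn0]
      exact hpt0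
    have hxt : Tendsto x (𝓝[≠] 0) (𝓝[≠] 0) := by
      refine tendsto_nhdsWithin_iff.2 ⟨?_, ?_⟩
      · have := hxc.tendsto
        rw [hx0] at this
        exact this.mono_left nhdsWithin_le_nhds
      · filter_upwards [self_mem_nhdsWithin] with z hz hz0
        apply hz
        have h1 : x z 1 = (0 : Fin 3 → ℂ) 1 := by
          have : x z = 0 := hz0
          rw [this]
        exact h1
    have hbad := hxt.eventually hiso
    have hgood : ∀ᶠ z in 𝓝[≠] (0 : ℂ), ∀ i, pd i f (x z) = 0 := by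
      filter_upwards [e2.filter_mono nhdsWithin_le_nhds, e3.filter_mono nhdsWithin_le_nhds,
        e4.filter_mono nhdsWithin_le_nhds] with z h1 h2 h3 i
      fin_cases i
      · exact h3
      · exact h1
      · exact h2
    obtain ⟨z, ⟨i, hi⟩, hz⟩ := (hbad.and hgood).exists
    exact hi (hz i)
  obtain ⟨N, u, hu, hu0, hφu⟩ := (hφan.exists_eventuallyEq_pow_smul_nonzero_iff).2 hφne
  -- lower bound
  have hlow : ∀ᶠ z in 𝓝 (0 : ℂ), ‖u 0‖ / 2 * ‖z‖ ^ N ≤ ‖φ z‖ := by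
    have hpos : 0 < ‖u 0‖ := norm_pos_iff.2 hu0
    have h1 : ∀ᶠ z in 𝓝 (0 : ℂ), ‖u 0‖ / 2 < ‖u z‖ :=
      hu.continuousAt.norm.eventually_const_lt (by linarith)
    filter_upwards [hφu, h1] with z h2 h3
    rw [h2, norm_smul, norm_pow, sub_zero, mul_comm]
    gcongr
  -- choice of the radii
  obtain ⟨δ₁, hδ₁, hQ1'⟩ := hQ₁ r₁ hr₁ le_rfl
  obtain ⟨δ₂, hδ₂, hQ2'⟩ := hQ₂ r₂ hr₂ le_rfl
  obtain ⟨δ₃, hδ₃, hlow'⟩ := Metric.eventually_nhds_iff_ball.1 hlow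
  obtain ⟨δ₄, hδ₄, hcont⟩ := Metric.eventually_nhds_iff_ball.1
    (hgan.eventually_analyticAt.and hm.eventually_analyticAt)
  set r := min (min (min r₁ δ₁) (min r₂ δ₂)) (min δ₃ δ₄) with hr
  have hr0 : 0 < r := by positivity
  have k1 : r ≤ r₁ := (min_le_left _ _).trans ((min_le_left _ _).trans (min_le_left _ _))
  have k2 : r ≤ δ₁ := (min_le_left _ _).trans ((min_le_left _ _).trans (min_le_right _ _))
  have k3 : r ≤ r₂ := (min_le_left _ _).trans ((min_le_right _ _).trans (min_le_left _ _))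
  have k4 : r ≤ δ₂ := (min_le_left _ _).trans ((min_le_right _ _).trans (min_le_right _ _))
  have k5 : r ≤ δ₃ := (min_le_right _ _).trans (min_le_left _ _)
  have k6 : r ≤ δ₄ := (min_le_right _ _).trans (min_le_right _ _)
  refine ⟨m, n, pd 2 (pd 2 f) 0, dl (dl F2) 0, r, N, ‖F2 0‖ + 1, ⟨hr0, ?_, ?_, ?_, ?_, ?_, ?_⟩,
    hA, ha2ne⟩
  · intro p hp
    exact (hcont p (ball_subset_ball k6 hp)).1.continuousAt.continuousWithinAt
  · intro p hp
    exact (hcont p (ball_subset_ball k6 hp)).2.differentiableAt.differentiableWithinAt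
  · intro p hp
    refine ⟨r₁, k1, ?_⟩
    exact (hQ1' p (ball_subset_ball k2 hp)).1.congr (fun w => by rw [hdlF])
  · intro z hz
    refine ⟨r₂, k3, _, (hQ2' z (ball_subset_ball k4 hz)).1, (hQ2' z (ball_subset_ball k4 hz)).2⟩
  · positivity
  · refine ⟨‖u 0‖ / 2, ?_, fun z hz => ?_⟩
    · have hpos : 0 < ‖u 0‖ := norm_pos_iff.2 hu0
      positivity
    · have := hlow' z (ball_subset_ball k5 hz)
      rw [Real.rpow_natCast]
      exact this

/-- **LC-AN in adapted coordinates.** -/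
theorem lcAn0 {f : (Fin 3 → ℂ) → ℂ} (hf : Hol f) (h0 : ∀ i, pd i f 0 = 0)
    (hA : pd 2 (pd 2 f) 0 ≠ 0)
    (hB : pd 0 (pd 0 f) 0 * pd 2 (pd 2 f) 0 - pd 0 (pd 2 f) 0 * pd 2 (pd 0 f) 0 ≠ 0)
    (hiso : ∀ᶠ x in 𝓝[≠] (0 : Fin 3 → ℂ), ∃ i, pd i f x ≠ 0) :
    ∃ r > 0, nu f 0 ((ball (0 : Fin 3 → ℂ) r).indicator fun _ => (1 : ℝ≥0∞)) < ∞ := by
  obtain ⟨m, n, A, a, r, N, M, h, hA', ha⟩ := exists_two hf h0 hA hB hiso
  exact ⟨r, h.r0, h.finite hA' ha⟩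

/-- a germ with finite Milnor number has an isolated critical point -/
lemma isolated_of_milnor {f : (Fin 3 → ℂ) → ℂ} (hf : Hol f) (h0 : ∀ i, pd i f 0 = 0) {μ : ℕ}
    (hμ : Milnor f μ) : ∀ᶠ x in 𝓝[≠] (0 : Fin 3 → ℂ), ∃ i, pd i f x ≠ 0 := by
  have h1 := H513.encard_fibre_le (s := fun i => pd i f) (fun j => hol_pd hf j) h0 hμ
  obtain ⟨r, hr, hr0⟩ := (h1.and self_mem_nhdsWithin).exists
  have hr0' : (0 : ℝ) < r := hr0
  set S := {x ∈ ball (0 : Fin 3 → ℂ) r | ∀ j, pd j f x = (0 : Fin 3 → ℂ) j} with hS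
  have hfin : S.Finite := by
    have := hr 0
    exact Set.finite_of_encard_le_coe this
  have h2 : (S \ {0})ᶜ ∈ 𝓝 (0 : Fin 3 → ℂ) :=
    (hfin.subset sdiff_subset).isClosed.isOpen_compl.mem_nhds (by simp)
  rw [eventually_nhdsWithin_iff]
  filter_upwards [h2, ball_mem_nhds (0 : Fin 3 → ℂ) hr0'] with x hx hxr hx0
  by_contra hcon
  push Not at hcon
  exact hx ⟨⟨hxr, fun j => by simpa using hcon j⟩, hx0⟩

end Vale.Agent.P298.H365.LcAn
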