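import Vale.Agent.P298.H365.LcAn5
import Vale.Agent.P298.H373.Nu
import Vale.Agent.P298.StmtFlag

/-!
# P298, row LC-AN: general linear coordinates
-/

open MeasureTheory Metric Set Filter Topology
open scoped ENNReal

namespace Vale.Agent.P298.H365.LcAn

open Vale.Agent.P298.H379 Vale.Agent.P298.H373

section lin

variable (T : (Fin 3 → ℂ) ≃L[ℂ] (Fin 3 → ℂ))

/-- matrix of the inverse -/
noncomputable def matS : Matrix (Fin 3) (Fin 3) ℂ := Matrix.of fun i j => T.symm (Pi.single j 1) i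

lemma matS_det_ne : (matS T).det ≠ 0 := by
  have h1 : matS T = LinearMap.toMatrix' (T.symm : (Fin 3 → ℂ) →ₗ[ℂ] (Fin 3 → ℂ)) := by
    ext i j
    rw [LinearMap.toMatrix'_apply]
    rfl
  have h2 : matS T * LinearMap.toMatrix' (T : (Fin 3 → ℂ) →ₗ[ℂ] (Fin 3 → ℂ)) = 1 := by
    rw [h1, ← LinearMap.toMatrix'_comp, ← LinearMap.toMatrix'_id]
    congr 1
    ext i
    simp
  intro h0
  have := congrArg Matrix.det h2
  rw [Matrix.det_mul, h0, zero_mul, Matrix.det_one] at this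
  exact zero_ne_one this

/-- chain rule -/
lemma fd_T (f : (Fin 3 → ℂ) → ℂ) (y v : Fin 3 → ℂ) :
    fderiv ℂ (fun y => f (T y)) y v = fderiv ℂ f (T y) (T v) := by
  have h := T.comp_right_fderiv (f := f) (x := y)
  have e1 : (f ∘ T) = fun y => f (T y) := rfl
  rw [e1] at h
  rw [h]
  rfl

lemma pd_T (f : (Fin 3 → ℂ) → ℂ) (i : Fin 3) (y : Fin 3 → ℂ) :
    pd i (fun y => f (T y)) y = fderiv ℂ f (T y) (T (Pi.single i 1)) := fd_T T f y _

lemma fd_coord (i : Fin 3) (x v : Fin 3 → ℂ) :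
    fderiv ℂ (fun x => T.symm x i) x v = T.symm v i := by
  have h : HasFDerivAt (fun x => T.symm x i)
      ((ContinuousLinearMap.proj i).comp (T.symm : (Fin 3 → ℂ) →L[ℂ] (Fin 3 → ℂ))) x :=
    ((ContinuousLinearMap.proj (R := ℂ) (φ := fun _ : Fin 3 => ℂ) i).comp
      (T.symm : (Fin 3 → ℂ) →L[ℂ] (Fin 3 → ℂ))).hasFDerivAt
  rw [h.fderiv]
  rfl

lemma jac3_lin (f : (Fin 3 → ℂ) → ℂ) (x : Fin 3 → ℂ) :
    jac3 f (fun x => T.symm x 0) (fun x => T.symm x 1) x =
      pd 2 (fun y => f (T y)) (T.symm x) * (matS T).det := by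
  set y := T.symm x with hy
  have hx : T y = x := by simp [hy]
  set F : Fin 3 → ℂ := fun i => pd i (fun y => f (T y)) y with hF
  set K : Matrix (Fin 3) (Fin 3) ℂ := Matrix.of ![F, Pi.single 0 1, Pi.single 1 1] with hK
  have h1 : (Matrix.of fun i j : Fin 3 =>
      pd j (![f, fun x => T.symm x 0, fun x => T.symm x 1] i) x) = K * matS T := by
    ext i j
    rw [Matrix.mul_apply]
    fin_cases i
    · show pd j f x = ∑ k, F k * T.symm (Pi.single j 1) k
      have e1 : (Pi.single j 1 : Fin 3 → ℂ) = T (T.symm (Pi.single j 1)) := by simp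
      have e2 : T.symm (Pi.single j 1) =
          ∑ k, T.symm (Pi.single j 1) k • (Pi.single k 1 : Fin 3 → ℂ) := by
        ext l
        rw [Finset.sum_apply]
        simp [Pi.single_apply]
      have e3 : pd j f x = fderiv ℂ (fun y => f (T y)) y (T.symm (Pi.single j 1)) := by
        rw [fd_T, hx, ← e1]
        rfl
      rw [e3]
      conv_lhs => rw [e2]
      rw [map_sum]
      refine Finset.sum_congr rfl fun k _ => ?_
      rw [map_smul, smul_eq_mul, mul_comm]
      rfl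
    · show fderiv ℂ (fun x => T.symm x 0) x (Pi.single j 1) =
        ∑ k, (Pi.single 0 1 : Fin 3 → ℂ) k * T.symm (Pi.single j 1) k
      rw [fd_coord]
      simp [Pi.single_apply]
    · show fderiv ℂ (fun x => T.symm x 1) x (Pi.single j 1) =
        ∑ k, (Pi.single 1 1 : Fin 3 → ℂ) k * T.symm (Pi.single j 1) k
      rw [fd_coord]
      simp [Pi.single_apply]
  rw [jac3, h1, Matrix.det_mul]
  congr 1
  rw [Matrix.det_fin_three, hK]
  simp [hF]

end lin

/-- finiteness in arbitrary linear coordinates -/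
lemma Two.finite_lin {f : (Fin 3 → ℂ) → ℂ} (hf : Hol f) (T : (Fin 3 → ℂ) ≃L[ℂ] (Fin 3 → ℂ))
    {m : ℂ × ℂ → ℂ} {n : ℂ → ℂ} {A a : ℂ} {r N M : ℝ}
    (h : Two (fun y => f (T y)) m n A a r N M) (hA : A ≠ 0) (ha : a ≠ 0) :
    ∃ r' > 0, nu f 0 ((ball (0 : Fin 3 → ℂ) r').indicator fun _ => (1 : ℝ≥0∞)) < ∞ := by
  classical
  set g : ℂ × ℂ → ℂ := fun q => f (T (pt q (m q))) with hg
  have hfin := h.int_finite ha
  -- the open set
  obtain ⟨ρ, hρ, hρf⟩ := Metric.eventually_nhds_iff_ball.1 (AnalyticAt.eventually_analyticAt hf)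
  set Ω : Set (Fin 3 → ℂ) := T.symm ⁻¹' ball 0 r ∩ ball 0 ρ with hΩ
  have hΩo : IsOpen Ω := (isOpen_ball.preimage T.symm.continuous).inter isOpen_ball
  have hΩf : AnalyticOnNhd ℂ f Ω := fun x hx => hρf x hx.2
  have hcoord : ∀ i : Fin 3, AnalyticOnNhd ℂ (fun x => T.symm x i) Ω := by
    intro i x _
    exact ((ContinuousLinearMap.proj (R := ℂ) (φ := fun _ : Fin 3 => ℂ) i).comp
      (T.symm : (Fin 3 → ℂ) →L[ℂ] (Fin 3 → ℂ))).analyticAt x
  have h0Ω : (0 : Fin 3 → ℂ) ∈ Ω := by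
    refine ⟨?_, mem_ball_self hρ⟩
    show T.symm 0 ∈ ball 0 r
    rw [map_zero]; exact mem_ball_self h.r0
  obtain ⟨r', hr', hr'Ω⟩ := Metric.isOpen_iff.1 hΩo 0 h0Ω
  -- coordinates
  set a' : (Fin 3 → ℂ) → ℂ := fun x => T.symm x 0 with ha'
  set b' : (Fin 3 → ℂ) → ℂ := fun x => T.symm x 1 with hb'
  have hpt : ∀ x : Fin 3 → ℂ, pt (a' x, b' x) (T.symm x 2) = T.symm x := by
    intro x; ext i; fin_cases i <;> rfl
  have hxΩ : ∀ x ∈ Ω, (a' x, b' x) ∈ ball (0 : ℂ × ℂ) r ∧ T.symm x 2 ∈ ball (0 : ℂ) r := by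
    intro x hx
    have h1 : ‖T.symm x‖ < r := by simpa using hx.1
    rw [← hpt x, norm_pt] at h1
    exact ⟨by simpa using (le_max_left _ _).trans_lt h1,
      by simpa using (le_max_right _ _).trans_lt h1⟩
  -- the measurable bound
  set D := (matS T).det with hD
  have hD0 : D ≠ 0 := matS_det_ne T
  set K : ℝ≥0∞ := ‖D‖ₑ ^ 2 * ‖A‖ₑ with hK
  have hK0 : K ≠ 0 := by
    rw [hK]; exact mul_ne_zero (pow_ne_zero _ (by simpa using hD0)) (by simpa using hA)
  have hKt : K ≠ ∞ := by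
    rw [hK]; exact ENNReal.mul_ne_top (by simp) (by simp)
  set B := ball (0 : ℂ × ℂ) r with hB
  set g' : ℂ × ℂ → ℂ := B.piecewise g (fun _ => 0) with hg'
  have hg'm : Measurable g' :=
    ContinuousOn.measurable_piecewise h.cont continuousOn_const measurableSet_ball
  have hg'B : ∀ q ∈ B, g' q = g q := fun q hq => piecewise_eq_of_mem _ _ _ hq
  set Φ : ℂ × ℂ → ℝ≥0∞ := B.indicator fun q => K⁻¹ * (‖g' q‖ₑ)⁻¹ with hΦ
  have hΦm : Measurable Φ :=
    ((hg'm.enorm.inv).const_mul _).indicator measurableSet_ball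
  have hΦint : ∫⁻ q, Φ q < ∞ := by
    rw [hΦ, lintegral_indicator measurableSet_ball, lintegral_const_mul' _ _
      (ENNReal.inv_ne_top.2 hK0)]
    refine ENNReal.mul_lt_top (ENNReal.inv_lt_top.2 (pos_iff_ne_zero.2 hK0)) ?_
    refine lt_of_le_of_lt (le_of_eq ?_) hfin
    refine setLIntegral_congr_fun measurableSet_ball fun q hq => ?_
    show (‖g' q‖ₑ)⁻¹ = _
    rw [hg'B q hq]
  -- the critical set
  set N0 : Set (ℂ × ℂ) := {q ∈ B | g q = 0} with hN0
  have hN0null : volume N0 = 0 := by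
    have h1 : ∀ᵐ q ∂(volume.restrict B), (‖g q‖ₑ)⁻¹ < ∞ := by
      refine ae_lt_top' ?_ hfin.ne
      exact ((h.cont.aemeasurable measurableSet_ball).enorm.inv)
    rw [ae_restrict_iff' measurableSet_ball] at h1
    refine measure_mono_null ?_ (ae_iff.1 h1)
    intro q hq hcon
    have := hcon hq.1
    rw [hq.2] at this
    simp at this
  set P : ℂ × ℂ → ℂ × ℂ := fun q => (T (pt q (m q)) 0, T (pt q (m q)) 1) with hP
  have hPd : DifferentiableOn ℝ P B := by
    have hm : DifferentiableOn ℂ m B := h.mdiff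
    have h1 : DifferentiableOn ℂ (fun q : ℂ × ℂ => ptE (q, m q)) B :=
      ptE.differentiable.comp_differentiableOn (differentiableOn_id.prodMk hm)
    have h2 : DifferentiableOn ℂ (fun q : ℂ × ℂ => T (ptE (q, m q))) B :=
      T.differentiable.comp_differentiableOn h1
    have h3 : ∀ i : Fin 3, DifferentiableOn ℂ (fun q : ℂ × ℂ => T (ptE (q, m q)) i) B :=
      fun i => (differentiableOn_pi.1 h2) i
    exact ((h3 0).prodMk (h3 1)).restrictScalars ℝ
  have hPnull : volume (P '' N0) = 0 :=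
    addHaar_image_eq_zero_of_differentiableOn_of_addHaar_eq_zero volume
      (hPd.mono fun q hq => hq.1) hN0null
  -- points with `g = 0`
  have hcritpt : ∀ x ∈ Ω, f x = 0 → g (a' x, b' x) = 0 →
      T.symm x 2 = m (a' x, b' x) := by
    intro x hx hfx hgx
    obtain ⟨hq, hw⟩ := hxΩ x hx
    obtain ⟨r₁, hr₁, hQ⟩ := h.one _ hq
    have h1 := hQ.lower (ball_subset_ball hr₁ hw)
    have e1 : f (T (pt (a' x, b' x) (T.symm x 2))) = 0 := by
      rw [hpt, T.apply_symm_apply]; exact hfx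
    have e2 : f (T (pt (a' x, b' x) (m (a' x, b' x)))) = 0 := hgx
    simp only [e1, e2, sub_zero, norm_zero] at h1
    have hApos : 0 < ‖A‖ := norm_pos_iff.2 hA
    have h2 : ‖T.symm x 2 - m (a' x, b' x)‖ ^ 2 ≤ 0 := by
      by_contra hcon
      have : 0 < 3 / 8 * ‖A‖ * ‖T.symm x 2 - m (a' x, b' x)‖ ^ 2 := by
        have := not_le.1 hcon
        positivity
      linarith
    have h3 : ‖T.symm x 2 - m (a' x, b' x)‖ = 0 := by
      have := sq_nonneg ‖T.symm x 2 - m (a' x, b' x)‖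
      exact pow_eq_zero_iff (n := 2) (by norm_num) |>.1 (le_antisymm h2 this)
    exact sub_eq_zero.1 (norm_eq_zero.1 h3)
  -- the main bound
  set φ : (Fin 3 → ℂ) → ℝ≥0∞ := ({x ∈ Ω | g (a' x, b' x) ≠ 0}).indicator fun _ => 1 with hφ
  have hmain : nu f 0 φ ≤ (4 : ℕ) * ∫⁻ q, Φ q := by
    refine nu_le_of_fibre hΩo hΩf (hcoord 0) (hcoord 1) 0 hΦm (fun q => ?_) (fun x hx => ?_)
      (fun x hx hfx hpd => ?_)
    · -- at most four points in the fibre
      by_cases hq : q ∈ B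
      · obtain ⟨r₁, hr₁, hQ⟩ := h.one q hq
        have h1 := hQ.encard_le 0
        have h2 : InjOn (fun x : Fin 3 → ℂ => T.symm x 2)
            {x | x ∈ Ω ∧ f x = 0 ∧ a' x = q.1 ∧ b' x = q.2} := by
          intro x hx y hy hxy
          apply T.symm.injective
          rw [← hpt x, ← hpt y, hx.2.2.1, hx.2.2.2, hy.2.2.1, hy.2.2.2]
          have : T.symm x 2 = T.symm y 2 := hxy
          rw [this]
        rw [← h2.encard_image]
        refine (encard_le_encard ?_).trans h1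
        rintro w ⟨x, hx, rfl⟩
        obtain ⟨-, hw⟩ := hxΩ x hx.1
        refine ⟨ball_subset_ball hr₁ hw, ?_⟩
        have e1 : pt q (T.symm x 2) = T.symm x := by
          rw [← hpt x, hx.2.2.1, hx.2.2.2]; rfl
        show f (T (pt q (T.symm x 2))) = 0
        rw [e1, T.apply_symm_apply]
        exact hx.2.1
      · have : {x | x ∈ Ω ∧ f x = 0 ∧ a' x = q.1 ∧ b' x = q.2} = ∅ := by
          ext x
          simp only [mem_ofPred_eq, mem_empty_iff_false, iff_false]
          rintro ⟨hx, -, h1, h2⟩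
          apply hq
          have := (hxΩ x hx).1
          rw [h1, h2] at this
          exact this
        have h' : ({x | x ∈ Ω ∧ f x = 0 ∧ (fun x => T.symm x 0) x = q.1 ∧
          (fun x => T.symm x 1) x = q.2} : Set _) = ∅ := this
        rw [h']
        simp
    · rw [hφ, indicator_of_notMem]
      exact fun hx' => hx hx'.1
    · obtain ⟨hq, hw⟩ := hxΩ x hx
      by_cases hgx : g (a' x, b' x) = 0
      · rw [hφ, indicator_of_notMem (fun hx' => hx'.2 hgx)]
        exact zero_le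
      · rw [hφ, indicator_of_mem (show x ∈ {x ∈ Ω | g (a' x, b' x) ≠ 0} from ⟨hx, hgx⟩)]
        obtain ⟨r₁, hr₁, hQ⟩ := h.one _ hq
        have h1 := hQ.main (ball_subset_ball hr₁ hw)
        have e1 : f (T (pt (a' x, b' x) (T.symm x 2))) = 0 := by
          rw [hpt, T.apply_symm_apply]; exact hfx
        rw [e1, zero_sub, norm_neg, hpt] at h1
        have e2 : Φ (a' x, b' x) = K⁻¹ * (‖g (a' x, b' x)‖ₑ)⁻¹ := by
          rw [hΦ, indicator_of_mem hq, hg'B _ hq]
        rw [jac3_lin, e2]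
        have hgne : ‖g (a' x, b' x)‖ₑ ≠ 0 := by simpa using hgx
        have h2 : ‖A‖ₑ * ‖g (a' x, b' x)‖ₑ ≤ ‖pd 2 (fun y => f (T y)) (T.symm x)‖ₑ ^ 2 := by
          have h3 := ENNReal.ofReal_le_ofReal h1
          rw [ENNReal.ofReal_mul (norm_nonneg _), ENNReal.ofReal_pow (norm_nonneg _),
            ofReal_norm, ofReal_norm, ofReal_norm] at h3
          exact h3
        calc (1 : ℝ≥0∞) = (K * ‖g (a' x, b' x)‖ₑ) * (K⁻¹ * (‖g (a' x, b' x)‖ₑ)⁻¹) := by
              rw [← ENNReal.mul_inv (Or.inl hK0) (Or.inl hKt), ENNReal.mul_inv_cancel]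
              · exact mul_ne_zero hK0 hgne
              · exact ENNReal.mul_ne_top hKt (by simp)
          _ ≤ ‖pd 2 (fun y => f (T y)) (T.symm x) * D‖ₑ ^ 2 *
                (K⁻¹ * (‖g (a' x, b' x)‖ₑ)⁻¹) := by
              gcongr
              rw [enorm_mul, mul_pow, hK, mul_comm (‖D‖ₑ ^ 2), mul_assoc,
                mul_comm (‖D‖ₑ ^ 2), ← mul_assoc]
              gcongr
  refine ⟨r', hr', ?_⟩
  refine lt_of_le_of_lt ?_ (hmain.trans_lt (ENNReal.mul_lt_top (by simp) hΦint))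
  -- the two integrands agree almost everywhere
  refine lintegral_mono_ae ?_
  have hae : ∀ᵐ p : ℂ × ℂ, p ∉ P '' N0 := measure_eq_zero_iff_ae_notMem.1 hPnull
  filter_upwards [hae] with p hp
  refine ENNReal.tsum_le_tsum fun z => ?_
  refine ENNReal.div_le_div_right ?_ _
  by_cases hz : pt p z ∈ ball (0 : Fin 3 → ℂ) r'
  · have hzΩ := hr'Ω hz
    rw [indicator_of_mem hz, hφ, indicator_of_mem]
    refine ⟨hzΩ, fun hg0 => hp ?_⟩
    refine ⟨(a' (pt p z), b' (pt p z)), ⟨(hxΩ _ hzΩ).1, hg0⟩, ?_⟩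
    have h1 := hcritpt _ hzΩ z.2.1 hg0
    rw [hP]
    show (T (pt (a' (pt p z), b' (pt p z)) (m (a' (pt p z), b' (pt p z)))) 0,
      T (pt (a' (pt p z), b' (pt p z)) (m (a' (pt p z), b' (pt p z)))) 1) = p
    rw [← h1, hpt, T.apply_symm_apply]
    rfl
  · rw [indicator_of_notMem hz]
    exact zero_le

end Vale.Agent.P298.H365.LcAn
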