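import Vale.Agent.P298.H365.LcAn6

/-!
# P298, row LC-AN: linear algebra of the Hessian and the final theorem
-/

open MeasureTheory Metric Set Filter Topology
open scoped ENNReal ContDiff

namespace Vale.Agent.P298.H365.LcAn

open Vale.Agent.P298.H379

/-- a symmetric bilinear form with a nonzero minor: adapted vectors -/
lemma exists_adapted {V : Type*} [AddCommGroup V] [Module ℂ V] (B : V →ₗ[ℂ] V →ₗ[ℂ] ℂ)
    (hs : ∀ u v, B u v = B v u) {a b c d : V} (hm : B a c * B b d - B a d * B b c ≠ 0) :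
    ∃ u w : V, B w w ≠ 0 ∧ B u u * B w w - B u w * B w u ≠ 0 := by
  have h1 : ∃ w, B w w ≠ 0 := by
    by_contra hcon
    push Not at hcon
    have h2 : ∀ u v, B u v = 0 := by
      intro u v
      have h3 := hcon (u + v)
      simp only [map_add, LinearMap.add_apply] at h3
      rw [hcon u, hcon v, hs v u] at h3
      have h4 : (2 : ℂ) * B u v = 0 := by linear_combination h3
      exact (mul_eq_zero.1 h4).resolve_left two_ne_zero
    apply hm
    rw [h2 a c, h2 a d]
    ring
  obtain ⟨w, hw⟩ := h1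
  by_contra hcon
  push Not at hcon
  have h2 : ∀ u, B u u * B w w - B u w * B w u = 0 := fun u => hcon u w hw
  have h3 : ∀ u v, B u v * B w w = B u w * B v w := by
    intro u v
    have h4 := h2 (u + v)
    simp only [map_add, LinearMap.add_apply] at h4
    have h5 := h2 u
    have h6 := h2 v
    rw [hs w u] at h4 h5
    rw [hs w v] at h4 h6
    rw [hs v u] at h4
    have h7 : (2 : ℂ) * (B u v * B w w - B u w * B v w) = 0 := by
      linear_combination h4 - h5 - h6
    exact sub_eq_zero.1 ((mul_eq_zero.1 h7).resolve_left two_ne_zero)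
  apply hm
  have hw2 : B w w * B w w ≠ 0 := mul_ne_zero hw hw
  have h8 : (B a c * B b d - B a d * B b c) * (B w w * B w w) = 0 := by
    have e1 := h3 a c
    have e2 := h3 b d
    have e3 := h3 a d
    have e4 := h3 b c
    calc (B a c * B b d - B a d * B b c) * (B w w * B w w)
        = (B a c * B w w) * (B b d * B w w) - (B a d * B w w) * (B b c * B w w) := by ring
      _ = 0 := by rw [e1, e2, e3, e4]; ring
  exact (mul_eq_zero.1 h8).resolve_right hw2

/-- two adapted vectors are part of a basis -/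
lemma exists_equiv {B : (Fin 3 → ℂ) →ₗ[ℂ] (Fin 3 → ℂ) →ₗ[ℂ] ℂ} {u w : Fin 3 → ℂ}
    (h : B u u * B w w - B u w * B w u ≠ 0) :
    ∃ T : (Fin 3 → ℂ) ≃L[ℂ] (Fin 3 → ℂ), T (Pi.single 0 1) = u ∧ T (Pi.single 2 1) = w := by
  have hli : LinearIndependent ℂ ![u, w] := by
    rw [LinearIndependent.pair_iff]
    intro s t hst
    have h1 : ∀ x, s * B u x + t * B w x = 0 := by
      intro x
      have := congrArg (fun v => B v x) hst
      simpa using this
    have e1 := h1 u
    have e2 := h1 w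
    have hs0 : s * (B u u * B w w - B u w * B w u) = 0 := by
      linear_combination B w w * e1 - B w u * e2
    have ht0 : t * (B u u * B w w - B u w * B w u) = 0 := by
      linear_combination B u u * e2 - B u w * e1
    exact ⟨(mul_eq_zero.1 hs0).resolve_right h, (mul_eq_zero.1 ht0).resolve_right h⟩
  obtain ⟨x, hx⟩ := exists_linearIndependent_cons_of_lt_finrank hli (by simp)
  -- reorder
  have hv : LinearIndependent ℂ ![u, x, w] := by
    have h2 := hx.comp ![1, 0, 2] (by decide)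
    have e1 : (Fin.cons x ![u, w] : Fin 3 → (Fin 3 → ℂ)) ∘ ![1, 0, 2] = ![u, x, w] := by
      funext i
      fin_cases i <;> rfl
    rwa [e1] at h2
  set b : Module.Basis (Fin 3) ℂ (Fin 3 → ℂ) :=
    basisOfLinearIndependentOfCardEqFinrank hv (by simp) with hb
  refine ⟨(b.equivFun.symm).toContinuousLinearEquiv, ?_, ?_⟩
  · show b.equivFun.symm (Pi.single 0 1) = u
    rw [Module.Basis.equivFun_symm_apply, hb, coe_basisOfLinearIndependentOfCardEqFinrank,
      Fin.sum_univ_three]
    simp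
  · show b.equivFun.symm (Pi.single 2 1) = w
    rw [Module.Basis.equivFun_symm_apply, hb, coe_basisOfLinearIndependentOfCardEqFinrank,
      Fin.sum_univ_three]
    simp

/-- the Hessian as a bilinear form -/
noncomputable def hess (f : (Fin 3 → ℂ) → ℂ) : (Fin 3 → ℂ) →ₗ[ℂ] (Fin 3 → ℂ) →ₗ[ℂ] ℂ :=
  LinearMap.mk₂ ℂ (fun u v => fderiv ℂ (fderiv ℂ f) 0 u v) (by intros; simp) (by intros; simp)
    (by intros; simp) (by intros; simp)

lemma hess_apply (f : (Fin 3 → ℂ) → ℂ) (u v : Fin 3 → ℂ) :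
    hess f u v = fderiv ℂ (fderiv ℂ f) 0 u v := rfl

lemma pd_pd {f : (Fin 3 → ℂ) → ℂ} (hf : Hol f) (i j : Fin 3) :
    pd i (pd j f) 0 = hess f (Pi.single i 1) (Pi.single j 1) := by
  have h : DifferentiableAt ℂ (fderiv ℂ f) 0 := (AnalyticAt.fderiv hf).differentiableAt
  show fderiv ℂ (fun x => fderiv ℂ f x (Pi.single j 1)) 0 (Pi.single i 1) = _
  rw [fderiv_clm_apply h (differentiableAt_const _)]
  simp [hess_apply]

lemma hess_symm {f : (Fin 3 → ℂ) → ℂ} (hf : Hol f) (u v : Fin 3 → ℂ) :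
    hess f u v = hess f v u := by
  have h : IsSymmSndFDerivAt ℂ f 0 := by
    have h1 : ContDiffAt ℂ ω f 0 := AnalyticAt.contDiffAt hf
    exact h1.isSymmSndFDerivAt (by simp)
  exact h u v

lemma hess_T {f : (Fin 3 → ℂ) → ℂ} (hf : Hol f) (T : (Fin 3 → ℂ) ≃L[ℂ] (Fin 3 → ℂ))
    (u v : Fin 3 → ℂ) : hess (fun y => f (T y)) u v = hess f (T u) (T v) := by
  have h : DifferentiableAt ℂ (fderiv ℂ f) (T 0) := by
    rw [map_zero]; exact (AnalyticAt.fderiv hf).differentiableAt
  have hfT : DifferentiableAt ℂ (fderiv ℂ (fun y => f (T y))) 0 := by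
    have : Hol (fun y => f (T y)) :=
      AnalyticAt.fun_comp (g := f) (by rw [map_zero]; exact hf)
        ((T : (Fin 3 → ℂ) →L[ℂ] (Fin 3 → ℂ)).analyticAt 0)
    exact (AnalyticAt.fderiv this).differentiableAt
  have e1 : fderiv ℂ (fun y => fderiv ℂ (fun y => f (T y)) y v) 0 u =
      fderiv ℂ (fderiv ℂ (fun y => f (T y))) 0 u v := by
    rw [fderiv_clm_apply hfT (differentiableAt_const _)]
    simp
  have e2 : (fun y => fderiv ℂ (fun y => f (T y)) y v) = fun y => fderiv ℂ f (T y) (T v) := by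
    funext y; exact fd_T T f y v
  have e3 : fderiv ℂ (fun y => fderiv ℂ f (T y) (T v)) 0 u =
      fderiv ℂ (fderiv ℂ f) (T 0) (T u) (T v) := by
    rw [fd_T T (fun x => fderiv ℂ f x (T v)) 0 u, fderiv_clm_apply h (differentiableAt_const _)]
    simp
  rw [hess_apply, hess_apply, ← e1, e2, e3, map_zero]

/-- **LC-AN.** A germ with finite Milnor number whose Hessian at `0` has rank at least 2 (some
minor of size 2 is not zero): the square of the residue form is integrable. -/
theorem lcAn {f : (Fin 3 → ℂ) → ℂ} (hf : Hol f) (h0 : ∀ i, pd i f 0 = 0) {μ : ℕ}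
    (hμ : Milnor f μ) {i j k l : Fin 3}
    (hrk : pd i (pd k f) 0 * pd j (pd l f) 0 - pd i (pd l f) 0 * pd j (pd k f) 0 ≠ 0) :
    ∃ r > 0, nu f 0 ((ball (0 : Fin 3 → ℂ) r).indicator fun _ => (1 : ℝ≥0∞)) < ⊤ := by
  have hiso := isolated_of_milnor hf h0 hμ
  rw [pd_pd hf, pd_pd hf, pd_pd hf, pd_pd hf] at hrk
  obtain ⟨u, w, hw, huw⟩ := exists_adapted (hess f) (hess_symm hf) hrk
  obtain ⟨T, hT0, hT2⟩ := exists_equiv huw
  set h : (Fin 3 → ℂ) → ℂ := fun y => f (T y) with hh
  have hhol : Hol h := AnalyticAt.fun_comp (g := f) (by rw [map_zero]; exact hf)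
    ((T : (Fin 3 → ℂ) →L[ℂ] (Fin 3 → ℂ)).analyticAt 0)
  have hlin : ∀ x : Fin 3 → ℂ, (∀ i, pd i f x = 0) ↔ fderiv ℂ f x = 0 := by
    intro x
    constructor
    · intro hx
      ext v
      have e2 : v = ∑ k, v k • (Pi.single k 1 : Fin 3 → ℂ) := by
        ext l
        rw [Finset.sum_apply]
        simp [Pi.single_apply]
      rw [e2, map_sum]
      simp only [map_smul]
      refine (Finset.sum_eq_zero fun k _ => ?_).trans (by simp)
      have : fderiv ℂ f x (Pi.single k 1) = 0 := hx k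
      rw [this, smul_zero]
    · intro hx i
      rw [pd, hx]; rfl
  have hh0 : ∀ i, pd i h 0 = 0 := by
    intro i
    rw [hh, pd_T, map_zero, (hlin 0).1 h0]
    rfl
  have hA : pd 2 (pd 2 h) 0 ≠ 0 := by
    rw [pd_pd hhol, hess_T hf, hT2]
    exact hw
  have hB : pd 0 (pd 0 h) 0 * pd 2 (pd 2 h) 0 - pd 0 (pd 2 h) 0 * pd 2 (pd 0 h) 0 ≠ 0 := by
    rw [pd_pd hhol, pd_pd hhol, pd_pd hhol, pd_pd hhol, hess_T hf, hess_T hf, hess_T hf,
      hess_T hf, hT2, hT0]
    exact huw
  have hisoh : ∀ᶠ y in 𝓝[≠] (0 : Fin 3 → ℂ), ∃ i, pd i h y ≠ 0 := by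
    have hT : Tendsto T (𝓝[≠] 0) (𝓝[≠] 0) := by
      refine tendsto_nhdsWithin_iff.2 ⟨?_, ?_⟩
      · have := T.continuous.tendsto 0
        rw [map_zero] at this
        exact this.mono_left nhdsWithin_le_nhds
      · filter_upwards [self_mem_nhdsWithin] with y hy hy0
        exact hy (T.injective (by rw [hy0, map_zero]))
    filter_upwards [hT.eventually hiso] with y hy
    by_contra hcon
    push Not at hcon
    obtain ⟨i, hi⟩ := hy
    apply hi
    have h1 : fderiv ℂ f (T y) = 0 := by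
      ext v
      have e2 : T.symm v = ∑ k, T.symm v k • (Pi.single k 1 : Fin 3 → ℂ) := by
        ext l
        rw [Finset.sum_apply]
        simp [Pi.single_apply]
      have e3 : fderiv ℂ f (T y) v = fderiv ℂ h y (T.symm v) := by
        rw [hh, fd_T, T.apply_symm_apply]
      rw [e3]
      conv_lhs => rw [e2]
      rw [map_sum]
      simp only [map_smul]
      refine (Finset.sum_eq_zero fun k _ => ?_).trans (by simp)
      have : fderiv ℂ h y (Pi.single k 1) = 0 := hcon k
      rw [this, smul_zero]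
    exact (hlin (T y)).2 h1 i
  obtain ⟨m, n, A, a, r, N, M, h2, hA', ha⟩ := exists_two hhol hh0 hA hB hisoh
  exact h2.finite_lin hf T hA' ha

/-- in the language of the ideals of integrability: `1 ∈ I_k(f)` for all `k` -/
theorem inI_one {f : (Fin 3 → ℂ) → ℂ} (hf : Hol f) (h0 : ∀ i, pd i f 0 = 0) {μ : ℕ}
    (hμ : Milnor f μ) {i j k l : Fin 3}
    (hrk : pd i (pd k f) 0 * pd j (pd l f) 0 - pd i (pd l f) 0 * pd j (pd k f) 0 ≠ 0) (κ : ℝ) :
    InI f κ (fun _ => 1) := by
  obtain ⟨r, hr, h⟩ := lcAn hf h0 hμ hrk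
  refine ⟨analyticAt_const, r, hr, ?_⟩
  unfold Nloc
  simpa using h

end Vale.Agent.P298.H365.LcAn
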